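import Vale.Agent.P181.H534.Three3
import Vale.Agent.P181.H536.HW

/-!
Highest weight vectors with few boxes below the third row.
-/

set_option autoImplicit false

open scoped TensorProduct

namespace Vale.Agent.P181.H534

open Vale.Agent.P181 Vale.Agent.P181.H536 MvPolynomial H280

variable {n : ℕ}

/-- The first three variables. -/
noncomputable def EE (n : ℕ) : Fin 3 → MvPolynomial (Fin (n + 3)) ℂ := ![X 0, X 1, X 2]

/-- The variables other than the first three. -/
noncomputable def ZZ3 (n : ℕ) : Submodule ℂ (MvPolynomial (Fin (n + 3)) ℂ) :=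
  Submodule.span ℂ
    (Set.range (fun i : Fin n => (X i.succ.succ.succ : MvPolynomial (Fin (n + 3)) ℂ)))

/-- Scaling of the variables other than the first three. -/
noncomputable def scal3 (n : ℕ) (t : ℂ) :
    MvPolynomial (Fin (n + 3)) ℂ →ₐ[ℂ] MvPolynomial (Fin (n + 3)) ℂ :=
  aeval (Fin.cons (X 0) (Fin.cons (X 1) (Fin.cons (X 2) (fun i : Fin n => t • X i.succ.succ.succ))))

/-- Shears. -/
noncomputable def shr3 (n : ℕ) (ζ : Fin 3 → MvPolynomial (Fin (n + 3)) ℂ) :
    MvPolynomial (Fin (n + 3)) ℂ →ₐ[ℂ] MvPolynomial (Fin (n + 3)) ℂ :=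
  aeval (Fin.cons (X 0 + ζ 0) (Fin.cons (X 1 + ζ 1) (Fin.cons (X 2 + ζ 2)
    (fun i : Fin n => X i.succ.succ.succ))))

lemma scal3_zero (t : ℂ) : scal3 n t (X 0) = X 0 := by
  rw [scal3, aeval_X]; rfl

lemma scal3_one (t : ℂ) : scal3 n t (X 1) = X 1 := by
  rw [scal3, aeval_X]; rfl

lemma scal3_two (t : ℂ) : scal3 n t (X 2) = X 2 := by
  rw [scal3, aeval_X]; rfl

lemma scal3_succ (t : ℂ) (i : Fin n) :
    scal3 n t (X i.succ.succ.succ) = t • X i.succ.succ.succ := by
  rw [scal3, aeval_X]; rfl

lemma shr3_zero (ζ : Fin 3 → MvPolynomial (Fin (n + 3)) ℂ) :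
    shr3 n ζ (X 0) = X 0 + ζ 0 := by
  rw [shr3, aeval_X]; rfl

lemma shr3_one (ζ : Fin 3 → MvPolynomial (Fin (n + 3)) ℂ) :
    shr3 n ζ (X 1) = X 1 + ζ 1 := by
  rw [shr3, aeval_X]; rfl

lemma shr3_two (ζ : Fin 3 → MvPolynomial (Fin (n + 3)) ℂ) :
    shr3 n ζ (X 2) = X 2 + ζ 2 := by
  rw [shr3, aeval_X]; rfl

lemma shr3_succ (ζ : Fin 3 → MvPolynomial (Fin (n + 3)) ℂ) (i : Fin n) :
    shr3 n ζ (X i.succ.succ.succ) = X i.succ.succ.succ := by
  rw [shr3, aeval_X]; rfl

lemma setup3 (n : ℕ) : Setup3 (EE n) (ZZ3 n) (scal3 n) where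
  τe := by
    intro t c
    fin_cases c
    · exact scal3_zero t
    · exact scal3_one t
    · exact scal3_two t
  τz := by
    intro t z hz
    induction hz using Submodule.span_induction with
    | mem x hx =>
      obtain ⟨i, rfl⟩ := hx
      exact scal3_succ t i
    | zero => rw [map_zero, smul_zero]
    | add x y _ _ hx hy => rw [map_add, hx, hy, smul_add]
    | smul c x _ hx => rw [map_smul, hx, smul_comm]
  shear := by
    intro ζ hζ
    have hz : ∀ z ∈ ZZ3 n, shr3 n ζ z = z := by
      intro z hz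
      induction hz using Submodule.span_induction with
      | mem x hx =>
        obtain ⟨i, rfl⟩ := hx
        exact shr3_succ ζ i
      | zero => rw [map_zero]
      | add x y _ _ hx hy => rw [map_add, hx, hy]
      | smul c x _ hx => rw [map_smul, hx]
    have he : ∀ c, shr3 n ζ (EE n c) = EE n c + ζ c := by
      intro c
      fin_cases c
      · exact shr3_zero ζ
      · exact shr3_one ζ
      · exact shr3_two ζ
    refine ⟨shr3 n ζ, ⟨hz, ?_⟩, he⟩
    intro u hu
    induction hu using Submodule.span_induction with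
    | mem x hx =>
      obtain ⟨c, rfl⟩ := hx
      rw [he, add_sub_cancel_left]
      exact hζ c
    | zero => rw [map_zero, sub_zero]; exact Submodule.zero_mem _
    | add x y _ _ hx hy =>
      have h1 : shr3 n ζ (x + y) - (x + y) = (shr3 n ζ x - x) + (shr3 n ζ y - y) := by
        rw [map_add]; abel
      rw [h1]
      exact Submodule.add_mem _ hx hy
    | smul c x _ hx =>
      rw [map_smul, ← smul_sub]
      exact Submodule.smul_mem _ _ hx

lemma sup_eq3 (n : ℕ) : Submodule.span ℂ (Set.range (EE n)) ⊔ ZZ3 n = linS (n + 3) := by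
  apply le_antisymm
  · apply sup_le
    · rw [Submodule.span_le]
      rintro _ ⟨c, rfl⟩
      fin_cases c
      · exact X_mem_linS _
      · exact X_mem_linS _
      · exact X_mem_linS _
    · rw [ZZ3, Submodule.span_le]
      rintro _ ⟨i, rfl⟩
      exact X_mem_linS _
  · rw [linS, Submodule.span_le]
    rintro _ ⟨i, rfl⟩
    have he : ∀ c, EE n c ∈ Submodule.span ℂ (Set.range (EE n)) ⊔ ZZ3 n :=
      fun c => Submodule.mem_sup_left (Submodule.subset_span ⟨c, rfl⟩)
    refine Fin.cases ?_ (fun i => ?_) i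
    · exact he 0
    · refine Fin.cases ?_ (fun i => ?_) i
      · exact he 1
      · refine Fin.cases ?_ (fun i => ?_) i
        · exact he 2
        · exact Submodule.mem_sup_right (Submodule.subset_span ⟨i, rfl⟩)

/-- The matrix of a shear composed with a scaling. -/
def mat3 (t : ℂ) (m : Fin 3 → Fin n → ℂ) : Matrix (Fin (n + 3)) (Fin (n + 3)) ℂ :=
  Matrix.of (Fin.cons (Fin.cons 1 (Fin.cons 0 (Fin.cons 0 (m 0))))
    (Fin.cons (Fin.cons 0 (Fin.cons 1 (Fin.cons 0 (m 1))))
    (Fin.cons (Fin.cons 0 (Fin.cons 0 (Fin.cons 1 (m 2))))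
    (fun i => Fin.cons 0 (Fin.cons 0 (Fin.cons 0 (fun j => if i = j then t else 0)))))))

lemma mat3_borel {t : ℂ} (ht : t ≠ 0) (m : Fin 3 → Fin n → ℂ) : IsBorel (mat3 t m) := by
  constructor
  · intro i j hij
    refine Fin.cases (motive := fun i => j < i → mat3 t m i j = 0) ?_ ?_ i hij
    · intro h
      exact absurd h (Fin.not_lt_zero j)
    · intro i
      refine Fin.cases ?_ (fun i => ?_) i
      · intro h
        have hj : j = 0 := by
          apply Fin.ext
          have : (j : ℕ) < 1 := h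
          simpa using this
        rw [hj]
        rfl
      · refine Fin.cases ?_ (fun i => ?_) i
        · refine Fin.cases ?_ (fun j => ?_) j
          · intro _; rfl
          · intro h
            have hj : j = 0 := by
              apply Fin.ext
              have : (j : ℕ) + 1 < 1 + 1 := h
              have h2 : (j : ℕ) < 1 := by omega
              simpa using h2
            rw [hj]
            rfl
        · refine Fin.cases ?_ (fun j => ?_) j
          · intro _; rfl
          · refine Fin.cases ?_ (fun j => ?_) j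
            · intro _; rfl
            · refine Fin.cases ?_ (fun j => ?_) j
              · intro _; rfl
              · intro h
                have h1 : j ≠ i := by
                  rintro rfl
                  exact lt_irrefl _ h
                change (if i = j then t else 0) = 0
                rw [if_neg (Ne.symm h1)]
  · intro i
    refine Fin.cases ?_ (fun i => ?_) i
    · exact one_ne_zero
    · refine Fin.cases ?_ (fun i => ?_) i
      · exact one_ne_zero
      · refine Fin.cases ?_ (fun i => ?_) i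
        · exact one_ne_zero
        · change (if i = i then t else 0) ≠ 0
          rw [if_pos rfl]
          exact ht

lemma mat3_prod (t : ℂ) (m : Fin 3 → Fin n → ℂ) (lam : Fin (n + 3) → ℕ) :
    ∏ i, mat3 t m i i ^ lam i = t ^ (∑ i : Fin n, lam i.succ.succ.succ) := by
  rw [Fin.prod_univ_succ, Fin.prod_univ_succ, Fin.prod_univ_succ]
  have h0 : mat3 t m 0 0 = 1 := rfl
  have h1 : mat3 t m (Fin.succ 0) (Fin.succ 0) = 1 := rfl
  have h1' : mat3 t m (Fin.succ (Fin.succ 0)) (Fin.succ (Fin.succ 0)) = 1 := rfl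
  have h2 : ∀ i : Fin n, mat3 t m i.succ.succ.succ i.succ.succ.succ = t := by
    intro i
    change (if i = i then t else 0) = t
    rw [if_pos rfl]
  rw [h0, h1, h1', one_pow, one_pow, one_pow, one_mul, one_mul, one_mul]
  simp only [h2]
  rw [Finset.prod_pow_eq_pow_sum]

lemma good_formOf3 {a b : ℕ} (lam : Fin (n + 3) → ℕ)
    (l : (Fin a → Fin b → (Fin (n + 3) → ℂ)) →₀ ℂ)
    (hx : elOf l ∈ hwSpace lam (plethAct a b (n + 3))) :
    Good (Submodule.span ℂ (Set.range (EE n))) (ZZ3 n) (scal3 n) b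
      (∑ i : Fin n, lam i.succ.succ.succ) (formOf l) := by
  intro g hg P hP
  rw [sup_eq3] at hP
  set r := ∑ i : Fin n, lam i.succ.succ.succ with hr
  refine ⟨Polynomial.C (formOf l P) * Polynomial.X ^ r,
    Polynomial.natDegree_C_mul_X_pow_le _ _, fun t ht => ?_⟩
  rw [Polynomial.eval_mul, Polynomial.eval_C, Polynomial.eval_pow, Polynomial.eval_X]
  -- the coefficients of the shear
  choose m hm using fun c : Fin 3 => (Submodule.mem_span_range_iff_exists_fun ℂ |>.1
    (hg.2 (EE n c) (Submodule.subset_span ⟨c, rfl⟩)))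
  have hm0 : ∑ i, m 0 i • (X i.succ.succ.succ : MvPolynomial (Fin (n + 3)) ℂ) =
      g (X 0) - X 0 := hm 0
  have hm1 : ∑ i, m 1 i • (X i.succ.succ.succ : MvPolynomial (Fin (n + 3)) ℂ) =
      g (X 1) - X 1 := hm 1
  have hm2 : ∑ i, m 2 i • (X i.succ.succ.succ : MvPolynomial (Fin (n + 3)) ℂ) =
      g (X 2) - X 2 := hm 2
  have hM : ∀ c : Fin (n + 3), evL (n + 3) (g (scal3 n t (X c))) =
      fun v => (Matrix.toLin' (mat3 t m) v) c := by
    intro c
    funext v
    rw [Matrix.toLin'_apply, Matrix.mulVec, dotProduct, Fin.sum_univ_succ, Fin.sum_univ_succ,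
      Fin.sum_univ_succ]
    refine Fin.cases ?_ (fun c => ?_) c
    · have h1 : g (scal3 n t (X 0)) = X 0 + ∑ i, m 0 i • X i.succ.succ.succ := by
        rw [scal3_zero, hm0]; abel
      rw [h1, map_add, map_sum, evL_X]
      simp only [map_smul, evL_X, Pi.add_apply, Finset.sum_apply, Pi.smul_apply, smul_eq_mul]
      change _ = 1 * v 0 + (0 * v 1 + (0 * v 2 + ∑ i, m 0 i * v i.succ.succ.succ))
      ring
    · refine Fin.cases ?_ (fun c => ?_) c
      · have h1 : g (scal3 n t (X 1)) = X 1 + ∑ i, m 1 i • X i.succ.succ.succ := by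
          rw [scal3_one, hm1]; abel
        change evL (n + 3) (g (scal3 n t (X 1))) v = _
        rw [h1, map_add, map_sum, evL_X]
        simp only [map_smul, evL_X, Pi.add_apply, Finset.sum_apply, Pi.smul_apply, smul_eq_mul]
        change _ = 0 * v 0 + (1 * v 1 + (0 * v 2 + ∑ i, m 1 i * v i.succ.succ.succ))
        ring
      · refine Fin.cases ?_ (fun c => ?_) c
        · have h1 : g (scal3 n t (X 2)) = X 2 + ∑ i, m 2 i • X i.succ.succ.succ := by
            rw [scal3_two, hm2]; abel
          change evL (n + 3) (g (scal3 n t (X 2))) v = _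
          rw [h1, map_add, map_sum, evL_X]
          simp only [map_smul, evL_X, Pi.add_apply, Finset.sum_apply, Pi.smul_apply, smul_eq_mul]
          change _ = 0 * v 0 + (0 * v 1 + (1 * v 2 + ∑ i, m 2 i * v i.succ.succ.succ))
          ring
        · have h1 : g (scal3 n t (X c.succ.succ.succ)) = t • X c.succ.succ.succ := by
            rw [scal3_succ, map_smul, hg.1 _ (Submodule.subset_span ⟨c, rfl⟩)]
          rw [h1, map_smul, evL_X]
          change t * v c.succ.succ.succ = 0 * v 0 + (0 * v 1 + (0 * v 2 +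
            ∑ i : Fin n, (if c = i then t else 0) * v i.succ.succ.succ))
          simp
  let Φ : MultilinearMap ℂ (fun _ : Fin a => MvPolynomial (Fin (n + 3)) ℂ) ℂ :=
    comp (comp (formOf l) g) (scal3 n t) - t ^ r • formOf l
  have hΦ : Φ P = 0 := by
    apply multilinear_zero_of_span Φ
      (Set.range (fun c : Fin b → Fin (n + 3) => ∏ j, (X (c j) : MvPolynomial (Fin (n + 3)) ℂ)))
    · intro w hw
      choose c hc using hw
      have hw' : w = fun i => ∏ j, X (c i j) := by
        funext i; exact (hc i).symm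
      have h1 := formOf_act lam l hx (mat3 t m) c (fun i j => g (scal3 n t (X (c i j))))
        (mat3_borel ht m) (fun i j => hM (c i j))
      rw [mat3_prod] at h1
      rw [hw']
      have h2 : Φ (fun i => ∏ j, X (c i j)) =
          formOf l (fun i => g (scal3 n t (∏ j, X (c i j)))) -
            t ^ r * formOf l (fun i => ∏ j, X (c i j)) := rfl
      rw [h2]
      simp only [map_prod]
      rw [h1, sub_self]
    · intro i
      exact span_pow_eq _ _ (hP i)
  have h1 : Φ P = comp (formOf l) g (fun i => scal3 n t (P i)) - t ^ r * formOf l P := rfl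
  rw [h1, sub_eq_zero] at hΦ
  rw [hΦ, mul_comm]

/-- **The canonical map is injective on highest weight vectors with few boxes below the third
row.** -/
theorem foulkesHowe_injOn3 {a b : ℕ} (ha : 2 ≤ a) (lam : Fin (n + 3) → ℕ)
    (hlam : a * a + 2 * a + 2 * (∑ i : Fin n, lam i.succ.succ.succ) ≤ 2 * b + 5)
    (x : Sym[ℂ]^a (Sym[ℂ]^b (Fin (n + 3) → ℂ)))
    (hx : x ∈ hwSpace lam (plethAct a b (n + 3)))
    (h0 : foulkesHowe a b (Fin (n + 3) → ℂ) x = 0) : x = 0 := by
  obtain ⟨l, rfl⟩ := exists_elOf x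
  apply elOf_eq_zero
  have hK := isK_formOf l h0
  rw [← sup_eq3] at hK ⊢
  set r := ∑ i : Fin n, lam i.succ.succ.succ with hr
  obtain ⟨a', rfl⟩ : ∃ a', a = a' + 2 := ⟨a - 2, by omega⟩
  obtain ⟨M, hM⟩ : ∃ M, r + M = b := by
    refine ⟨b - r, ?_⟩
    have h1 : r ≤ b := by nlinarith
    omega
  have hM2 : 2 ≤ M := by nlinarith
  refine firstOrder3 (M := M) (setup3 n) hM2 hM.le (a' + 2) ?_ (formOf l)
    ⟨formOf_symm l, hK, good_formOf3 lam l hx⟩
  intro k hk
  obtain ⟨d, hd⟩ : ∃ d, k + d = a' + 1 := ⟨a' + 1 - k, by omega⟩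
  have h2 : a' = k + d - 1 := by omega
  have h3 : (a' + 1) * (a' + 1) + 4 * (a' + 1) ≤ 2 * M + 2 := by nlinarith
  rw [← hd] at h3
  nlinarith [Nat.zero_le (k * d), Nat.zero_le (d * d)]

theorem plethMult_le3 {a b : ℕ} (ha : 2 ≤ a) (lam : Fin (n + 3) → ℕ)
    (hlam : a * a + 2 * a + 2 * (∑ i : Fin n, lam i.succ.succ.succ) ≤ 2 * b + 5) :
    plethMult a b (n + 3) lam ≤ plethMult b a (n + 3) lam :=
  finrank_le_of_inj (foulkesHowe a b (Fin (n + 3) → ℂ)) _ _
    (fun x hx => foulkesHowe_hwSpace lam x hx)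
    (fun x hx h0 => foulkesHowe_injOn3 ha lam hlam x hx h0)

end Vale.Agent.P181.H534
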