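import Vale.Agent.P181.H536.Steps3

/-!
The net step: many common lines in a three-dimensional space of lines.
-/

set_option autoImplicit false

open Polynomial

namespace Vale.Agent.P181.H534

open Vale.Agent.P181 Vale.Agent.P181.H536

/-- A polynomial with high order at both ends vanishes. -/
lemma order_core {s D : ℕ} (hD : D < 2 * s) (h g : ℂ[X]) (hh : X ^ s ∣ h) (hg : X ^ s ∣ g)
    (hr : ∀ σ : ℂ, σ ≠ 0 → h.eval σ = σ ^ D * g.eval σ⁻¹) : h = 0 := by
  obtain ⟨A, rfl⟩ := hh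
  obtain ⟨B, rfl⟩ := hg
  by_contra hne
  have hA : A ≠ 0 := by
    rintro rfl
    exact hne (mul_zero _)
  have key : A.reverse = X ^ (2 * s - D + A.natDegree) * B := by
    apply Polynomial.eq_of_infinite_eval_eq
    apply Set.Infinite.mono (s := ({0} : Set ℂ)ᶜ)
    · intro ρ hρ
      have hρ0 : ρ ≠ 0 := hρ
      rw [Set.mem_ofPred_eq]
      have hσ : ρ⁻¹ ≠ 0 := inv_ne_zero hρ0
      have h1 := hr ρ⁻¹ hσ
      rw [inv_inv, eval_mul, eval_mul, eval_pow, eval_pow, eval_X, eval_X] at h1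
      letI : Invertible (ρ⁻¹) := invertibleOfNonzero hσ
      have h2 := eval₂_reverse_mul_pow (RingHom.id ℂ) (ρ⁻¹) A
      rw [invOf_eq_inv, inv_inv] at h2
      change A.reverse.eval ρ * (ρ⁻¹) ^ A.natDegree = A.eval ρ⁻¹ at h2
      rw [eval_mul, eval_pow, eval_X]
      have h3 : ρ ^ A.natDegree * (ρ⁻¹) ^ A.natDegree = 1 := by
        rw [← mul_pow, mul_inv_cancel₀ hρ0, one_pow]
      have h4 : ρ ^ s * (ρ⁻¹) ^ s = 1 := by
        rw [← mul_pow, mul_inv_cancel₀ hρ0, one_pow]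
      have h5 : ρ ^ D * (ρ⁻¹) ^ D = 1 := by
        rw [← mul_pow, mul_inv_cancel₀ hρ0, one_pow]
      have h6 : ρ ^ (2 * s - D + A.natDegree) * ρ ^ D = ρ ^ s * ρ ^ s * ρ ^ A.natDegree := by
        rw [← pow_add, ← pow_add, ← pow_add]
        congr 1
        omega
      have h7 : A.eval ρ⁻¹ = ρ ^ s * (ρ⁻¹) ^ D * ρ ^ s * B.eval ρ := by
        calc A.eval ρ⁻¹ = ρ ^ s * (ρ⁻¹) ^ s * A.eval ρ⁻¹ := by rw [h4, one_mul]
          _ = ρ ^ s * ((ρ⁻¹) ^ s * A.eval ρ⁻¹) := by ring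
          _ = ρ ^ s * ((ρ⁻¹) ^ D * (ρ ^ s * B.eval ρ)) := by rw [h1]
          _ = _ := by ring
      calc A.reverse.eval ρ = A.reverse.eval ρ * (ρ ^ A.natDegree * (ρ⁻¹) ^ A.natDegree) := by
            rw [h3, mul_one]
        _ = ρ ^ A.natDegree * (A.reverse.eval ρ * (ρ⁻¹) ^ A.natDegree) := by ring
        _ = ρ ^ A.natDegree * (ρ ^ s * (ρ⁻¹) ^ D * ρ ^ s * B.eval ρ) := by rw [h2, h7]
        _ = (ρ ^ s * ρ ^ s * ρ ^ A.natDegree) * (ρ⁻¹) ^ D * B.eval ρ := by ring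
        _ = (ρ ^ (2 * s - D + A.natDegree) * ρ ^ D) * (ρ⁻¹) ^ D * B.eval ρ := by rw [h6]
        _ = ρ ^ (2 * s - D + A.natDegree) * (ρ ^ D * (ρ⁻¹) ^ D) * B.eval ρ := by ring
        _ = _ := by rw [h5, mul_one]
    · exact (Set.finite_singleton (0 : ℂ)).infinite_compl
  have h8 : A.leadingCoeff = 0 := by
    rw [← coeff_zero_reverse, key]
    obtain ⟨c, hc⟩ : ∃ c, 2 * s - D + A.natDegree = c + 1 := ⟨2 * s - D + A.natDegree - 1, by omega⟩
    rw [hc, pow_succ', mul_assoc, coeff_zero_eq_eval_zero, eval_mul, eval_X, zero_mul]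
  exact hA (leadingCoeff_eq_zero.1 h8)

/-- Vanishing on `s` lines through the origin. -/
lemma root_core {s : ℕ} (Q : MvPolynomial (Fin 2) ℂ) (t : Fin s → ℂ) (ht : Function.Injective t)
    (h0 : ∀ c, ∀ σ : ℂ, σ ≠ 0 → MvPolynomial.eval ![σ, σ * t c] Q = 0) :
    ∃ h : ℂ[X], X ^ s ∣ h ∧ ∀ σ, h.eval σ = MvPolynomial.eval ![σ, 0] Q := by
  let P : ℂ[X][X] := MvPolynomial.aeval (![C X, X] : Fin 2 → ℂ[X][X]) Q
  have hP : ∀ (u : ℂ[X]) (σ : ℂ), (P.eval u).eval σ = MvPolynomial.eval ![σ, u.eval σ] Q := by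
    intro u σ
    have h1 : ((Polynomial.aeval σ : ℂ[X] →ₐ[ℂ] ℂ).comp
        ((Polynomial.aeval u : ℂ[X][X] →ₐ[ℂ[X]] ℂ[X]).restrictScalars ℂ)).comp
        (MvPolynomial.aeval (![C X, X] : Fin 2 → ℂ[X][X])) =
        MvPolynomial.aeval ![σ, u.eval σ] := by
      apply MvPolynomial.algHom_ext
      intro i
      fin_cases i
      · simp
      · simp
    have h2 := congrArg (fun f => f Q) h1
    simp only [AlgHom.comp_apply] at h2
    rw [← MvPolynomial.coe_aeval_eq_eval, RingHom.coe_coe, ← h2]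
    simp only [P, AlgHom.restrictScalars_apply, Polynomial.coe_aeval_eq_eval]
  have hroot : ∀ c, P.eval (C (t c) * X) = 0 := by
    intro c
    apply Polynomial.eq_of_infinite_eval_eq
    apply Set.Infinite.mono (s := ({0} : Set ℂ)ᶜ)
    · intro σ hσ
      rw [Set.mem_ofPred_eq, hP, eval_mul, eval_C, eval_X, eval_zero, mul_comm]
      exact h0 c σ hσ
    · exact (Set.finite_singleton (0 : ℂ)).infinite_compl
  refine ⟨P.eval 0, ?_, fun σ => by rw [hP, eval_zero]⟩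
  by_cases hP0 : P = 0
  · rw [hP0, eval_zero]; exact dvd_zero _
  let m : Multiset ℂ[X] := (Finset.univ : Finset (Fin s)).val.map (fun c => C (t c) * X)
  have hm : m.Nodup := by
    apply Multiset.Nodup.map _ Finset.univ.nodup
    intro c c' hcc
    have h1 := congrArg (fun q : ℂ[X] => q.coeff 1) hcc
    simp only [coeff_C_mul, coeff_X_one, mul_one] at h1
    exact ht h1
  have hle : m ≤ P.roots := by
    rw [Multiset.le_iff_subset hm]
    intro a ha
    obtain ⟨c, -, rfl⟩ := Multiset.mem_map.1 ha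
    rw [mem_roots hP0]
    exact hroot c
  obtain ⟨R, hR⟩ := (Multiset.prod_X_sub_C_dvd_iff_le_roots hP0 m).2 hle
  rw [hR, eval_mul]
  apply Dvd.dvd.mul_right
  rw [eval_multiset_prod, Multiset.map_map, Multiset.map_map]
  have h1 : (Multiset.map ((eval 0 ∘ fun a : ℂ[X] => (X : ℂ[X][X]) - C a) ∘ fun c => C (t c) * X)
      (Finset.univ : Finset (Fin s)).val).prod = ∏ c : Fin s, (X * C (-(t c)) : ℂ[X]) := by
    apply Finset.prod_congr rfl
    intro c _
    simp only [Function.comp_apply, eval_sub, eval_X, eval_C, zero_sub, map_neg]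
    ring
  rw [h1, Finset.prod_mul_distrib, Finset.prod_const, Finset.card_univ, Fintype.card_fin]
  exact Dvd.intro _ rfl

end Vale.Agent.P181.H534
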