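import Vale.Agent.P181.H534.Net

/-!
The net step: many common lines in a three-dimensional space of lines.
-/

set_option autoImplicit false

open Polynomial

namespace Vale.Agent.P181.H534

open Vale.Agent.P181 Vale.Agent.P181.H536

variable {A : Type*} [CommRing A] [Algebra ℂ A]

/-- Generic vanishing implies vanishing. -/
lemma limit_generic {k : ℕ} (G : MultilinearMap ℂ (fun _ : Fin (k + 1) => A) ℂ) (P₀ P₁ : A[X])
    (B : ℂ[X]) (hB : B ≠ 0)
    (h : ∀ t : ℂ, B.eval t ≠ 0 → G.curryLeft (P₀.eval (algebraMap ℂ A t))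
      (fun _ => P₁.eval (algebraMap ℂ A t)) = 0) (t : ℂ) :
    G.curryLeft (P₀.eval (algebraMap ℂ A t)) (fun _ => P₁.eval (algebraMap ℂ A t)) = 0 := by
  obtain ⟨P, hP⟩ := poly_exists G (Fin.cons P₀ (fun _ => P₁))
  have hP' : ∀ t, P.eval t = G.curryLeft (P₀.eval (algebraMap ℂ A t))
      (fun _ => P₁.eval (algebraMap ℂ A t)) := by
    intro t
    rw [hP, MultilinearMap.curryLeft_apply]
    congr 1
    funext i
    refine Fin.cases ?_ (fun i => ?_) i
    · simp only [Fin.cons_zero]
    · simp only [Fin.cons_succ]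
  have hPB : B * P = 0 := by
    apply Polynomial.funext
    intro t
    rw [eval_mul, eval_zero, mul_eq_zero]
    by_cases hBt : B.eval t = 0
    · exact Or.inl hBt
    · right; rw [hP']; exact h t hBt
  have hP0 : P = 0 := (mul_eq_zero.1 hPB).resolve_left hB
  rw [← hP', hP0, eval_zero]

section

variable {L : Submodule ℂ A} {b k j : ℕ} {G : MultilinearMap ℂ (fun _ : Fin (k + 1) => A) ℂ}

/-- The group theorem with `N ≥ k` common lines of the pencil. -/
lemma stepC' {N : ℕ} (hk : k ≤ N) (hD : DD L b G (j + 1)) {p q : A}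
    (hp : p ∈ L) (hq : q ∈ L) (v S R : Multiset A)
    (hv : Multiset.card v = j + 2) (hS : Multiset.card S = j)
    (hR : j + 2 + (N + Multiset.card R) = b)
    (hvL : ∀ x ∈ v, x ∈ L) (hSL : ∀ x ∈ S, x ∈ L) (hRL : ∀ x ∈ R, x ∈ L)
    (x y : ℂ) (T : Multiset ℂ) (hT : Multiset.card T = N) :
    G.curryLeft (v.prod * (Lam p q T * R.prod))
      (fun _ => lin p q x * lin p q y * (S.prod * (Lam p q T * R.prod))) = 0 := by
  have hlin : ∀ x, lin p q x ∈ L := fun x => L.add_mem hp (L.smul_mem _ hq)
  have h1 := group_form hk G p q (v.prod * R.prod) (S.prod * R.prod) (by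
    intro x T hT
    obtain ⟨w, v', rfl⟩ : ∃ w v', v = w ::ₘ v' := by
      obtain ⟨z, hz⟩ := Multiset.card_pos_iff_exists_mem.1 (by omega : 0 < Multiset.card v)
      obtain ⟨R, hR⟩ := Multiset.exists_cons_of_mem hz
      exact ⟨z, R, hR⟩
    have h2 := stepB hD (hlin x) (hvL w (Multiset.mem_cons_self _ _)) v' S
      (T.map (lin p q) + R) (by rw [Multiset.card_cons] at hv; omega) hS
      (by rw [Multiset.card_add, Multiset.card_map, hT]; exact hR)
      (fun x hx => hvL x (Multiset.mem_cons_of_mem hx)) hSL (by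
        intro z hz
        rcases Multiset.mem_add.1 hz with hz | hz
        · obtain ⟨s, -, rfl⟩ := Multiset.mem_map.1 hz
          exact hlin s
        · exact hRL z hz)
    rw [Multiset.prod_add] at h2
    have h3 : (w ::ₘ v').prod * R.prod * Lam p q T =
        w * (v'.prod * ((T.map (lin p q)).prod * R.prod)) := by
      rw [Multiset.prod_cons, Lam]; ring
    have h4 : lin p q x * lin p q x * (Lam p q T * (S.prod * R.prod)) =
        lin p q x * lin p q x * (S.prod * ((T.map (lin p q)).prod * R.prod)) := by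
      rw [Lam]; ring
    rw [h3, h4]
    exact h2) x y T hT
  have h3 : v.prod * (Lam p q T * R.prod) = v.prod * R.prod * Lam p q T := by ring
  have h4 : lin p q x * lin p q y * (S.prod * (Lam p q T * R.prod)) =
      lin p q x * lin p q y * (Lam p q T * (S.prod * R.prod)) := by ring
  rw [h3, h4]
  exact h1

/-- `N` common lines in a pencil and `s` further ones in a net give zero. -/
def Net (L : Submodule ℂ A) (b : ℕ) {k : ℕ} (G : MultilinearMap ℂ (fun _ : Fin (k + 1) => A) ℂ)
    (j N s : ℕ) : Prop :=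
  ∀ (p q w m₁ m₂ : A) (T off v S R : Multiset A), p ∈ L → q ∈ L → w ∈ L →
    m₁ ∈ Submodule.span ℂ {p, q} → m₂ ∈ Submodule.span ℂ {p, q} →
    (∀ z ∈ T, z ∈ Submodule.span ℂ {p, q}) →
    (∀ z ∈ off, z ∈ Submodule.span ℂ {p, q, w}) →
    Multiset.card T = N → Multiset.card off = s → Multiset.card v = j + 2 →
    Multiset.card S = j → j + 2 + (N + (s + Multiset.card R)) = b →
    (∀ z ∈ v, z ∈ L) → (∀ z ∈ S, z ∈ L) → (∀ z ∈ R, z ∈ L) →
    G.curryLeft (v.prod * (T.prod * (off.prod * R.prod)))
      (fun _ => m₁ * m₂ * (S.prod * (T.prod * (off.prod * R.prod)))) = 0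

lemma line_eq2 (p q : A) (α β t : ℂ) (h : α + t ≠ 0) :
    α • p + β • q + t • p = (α + t) • lin p q (β / (α + t)) := by
  rw [lin, smul_add, smul_smul, mul_div_cancel₀ _ h, add_smul]
  abel

lemma span_three_le {L : Submodule ℂ A} {p q w : A} (hp : p ∈ L) (hq : q ∈ L) (hw : w ∈ L) :
    Submodule.span ℂ {p, q, w} ≤ L := by
  rw [Submodule.span_le]
  rintro _ (rfl | rfl | rfl)
  · exact hp
  · exact hq
  · exact hw

lemma net_base {N s : ℕ} (hk : k ≤ N) (hD : DD L b G (j + 1)) : Net L b G j N s := by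
  intro p q w m₁ m₂ T off v S R hp hq hw hm₁ hm₂ hT hoff hTc hoffc hv hS hb hvL hSL hRL
  obtain ⟨g, hg⟩ := exists_fin_map T N hTc
  have hgT : ∀ i, g i ∈ Submodule.span ℂ {p, q} := by
    intro i
    apply hT
    rw [hg]
    exact Multiset.mem_map_of_mem g (Finset.mem_univ_val i)
  choose a a' ha using fun i => Submodule.mem_span_pair.1 (hgT i)
  obtain ⟨a₁, b₁, rfl⟩ := Submodule.mem_span_pair.1 hm₁
  obtain ⟨a₂, b₂, rfl⟩ := Submodule.mem_span_pair.1 hm₂
  set E : A := off.prod * R.prod with hE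
  have key := limit_generic G
    (C v.prod * ((∏ i, (C (g i) + X * C p)) * C E))
    ((C (a₁ • p + b₁ • q) + X * C p) * (C (a₂ • p + b₂ • q) + X * C p) *
      (C S.prod * ((∏ i, (C (g i) + X * C p)) * C E)))
    ((X + C a₁) * (X + C a₂) * ∏ i, (X + C (a i)))
    (mul_ne_zero (mul_ne_zero (X_add_C_ne_zero _) (X_add_C_ne_zero _))
      (Finset.prod_ne_zero_iff.2 fun i _ => X_add_C_ne_zero _)) (by
    intro t ht
    simp only [eval_mul, eval_prod, eval_add, eval_X, eval_C, mul_ne_zero_iff,
      Finset.prod_ne_zero_iff, Finset.mem_univ, true_implies, ne_eq] at ht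
    obtain ⟨⟨h1, h2⟩, h3⟩ := ht
    have h1' : a₁ + t ≠ 0 := by rw [add_comm]; exact h1
    have h2' : a₂ + t ≠ 0 := by rw [add_comm]; exact h2
    have h3' : ∀ i, a i + t ≠ 0 := by intro i; rw [add_comm]; exact h3 i
    simp only [eval_mul, eval_prod, eval_add, eval_X, eval_C, ← Algebra.smul_def]
    have h4 : ∏ i, (g i + t • p) = (∏ i, (a i + t)) •
        Lam p q (Multiset.map (fun i => a' i / (a i + t)) Finset.univ.val) := by
      rw [Lam, Multiset.map_map]
      change _ = (∏ i, (a i + t)) • ∏ i, lin p q (a' i / (a i + t))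
      rw [← Finset.prod_smul]
      apply Finset.prod_congr rfl
      intro i _
      rw [← ha i, line_eq2 p q _ _ _ (h3' i)]
    rw [h4, line_eq2 p q _ _ _ h1', line_eq2 p q _ _ _ h2']
    rw [smul_mul_assoc, mul_smul_comm, smul_mul_smul_comm, mul_smul_comm, smul_mul_smul_comm]
    apply curryLeft_smul_smul
    have h5 := stepC' hk hD hp hq v S (off + R) hv hS
      (by rw [Multiset.card_add, hoffc]; exact hb) hvL hSL (by
        intro z hz
        rcases Multiset.mem_add.1 hz with hz | hz
        · exact span_three_le hp hq hw (hoff z hz)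
        · exact hRL z hz) (b₁ / (a₁ + t)) (b₂ / (a₂ + t))
      (Multiset.map (fun i => a' i / (a i + t)) Finset.univ.val) (by
        rw [Multiset.card_map]; simp)
    rw [Multiset.prod_add] at h5
    exact h5) 0
  simp only [eval_mul, eval_prod, eval_add, eval_X, eval_C, map_zero, zero_mul, add_zero] at key
  rw [hg]
  exact key

/-- One end of the pencil. -/
lemma net_end {N s : ℕ} (hNet : Net L b G j (N + 1) s) {p q w : A} (hp : p ∈ L) (hq : q ∈ L)
    (hw : w ∈ L) (a₁ b₁ a₂ b₂ : ℂ) (a a' : Fin N → ℂ) (f : Fin (s + 1) → A)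
    (α β γ : Fin (s + 1) → ℂ) (hf : ∀ c, f c = α c • p + β c • q + γ c • w)
    (hβ : ∀ c, β c ≠ 0) (ht : Function.Injective (fun c => γ c / β c)) (v S R : Multiset A)
    (hv : Multiset.card v = j + 2) (hS : Multiset.card S = j)
    (hb : j + 2 + (N + (s + 1 + Multiset.card R)) = b)
    (hvL : ∀ x ∈ v, x ∈ L) (hSL : ∀ x ∈ S, x ∈ L) (hRL : ∀ x ∈ R, x ∈ L) :
    ∃ h : ℂ[X], X ^ (s + 1) ∣ h ∧ ∀ σ : ℂ, h.eval σ =
      G.curryLeft (v.prod * ((∏ i, (a i • p + (a' i * σ) • q)) * ((∏ c, f c) * R.prod)))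
        (fun _ => (a₁ • p + (b₁ * σ) • q) * (a₂ • p + (b₂ * σ) • q) *
          (S.prod * ((∏ i, (a i • p + (a' i * σ) • q)) * ((∏ c, f c) * R.prod)))) := by
  classical
  set E : A := (∏ c, f c) * R.prod with hE
  obtain ⟨Q, hQ, -⟩ := mv_exists (σ := Fin 2) G
    (Fin.cons (MvPolynomial.C v.prod * ((∏ i, (MvPolynomial.C (a i • p) +
        MvPolynomial.X 0 * MvPolynomial.C (a' i • q) +
        MvPolynomial.X 1 * MvPolynomial.C (a' i • w))) * MvPolynomial.C E))
      (fun _ => (MvPolynomial.C (a₁ • p) + MvPolynomial.X 0 * MvPolynomial.C (b₁ • q) +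
        MvPolynomial.X 1 * MvPolynomial.C (b₁ • w)) *
        (MvPolynomial.C (a₂ • p) + MvPolynomial.X 0 * MvPolynomial.C (b₂ • q) +
        MvPolynomial.X 1 * MvPolynomial.C (b₂ • w)) * (MvPolynomial.C S.prod *
        ((∏ i, (MvPolynomial.C (a i • p) +
        MvPolynomial.X 0 * MvPolynomial.C (a' i • q) +
        MvPolynomial.X 1 * MvPolynomial.C (a' i • w))) * MvPolynomial.C E))))
  have hQ' : ∀ σ τ : ℂ, MvPolynomial.eval ![σ, τ] Q =
      G.curryLeft (v.prod * ((∏ i, (a i • p + σ • (a' i • q) + τ • (a' i • w))) * E))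
        (fun _ => (a₁ • p + σ • (b₁ • q) + τ • (b₁ • w)) *
          (a₂ • p + σ • (b₂ • q) + τ • (b₂ • w)) *
          (S.prod * ((∏ i, (a i • p + σ • (a' i • q) + τ • (a' i • w))) * E))) := by
    intro σ τ
    rw [hQ, MultilinearMap.curryLeft_apply]
    congr 1
    funext i
    refine Fin.cases ?_ (fun i => ?_) i
    · simp only [Fin.cons_zero, map_mul, map_prod, map_add, evA_C, evA_X, Matrix.cons_val_zero,
        Matrix.cons_val_one, ← Algebra.smul_def]
    · simp only [Fin.cons_succ, map_mul, map_prod, map_add, evA_C, evA_X, Matrix.cons_val_zero,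
        Matrix.cons_val_one, ← Algebra.smul_def]
  have hline : ∀ (x y σ t : ℂ), x • p + σ • (y • q) + (σ * t) • (y • w) =
      x • p + (σ * y) • (q + t • w) := by
    intro x y σ t
    rw [smul_add, smul_smul, smul_smul, smul_smul, add_assoc]
    congr 3
    ring
  have hmem : ∀ (x y t : ℂ), x • p + y • (q + t • w) ∈ Submodule.span ℂ {p, q + t • w} :=
    fun x y t => Submodule.mem_span_pair.2 ⟨x, y, rfl⟩
  obtain ⟨h, hh, hev⟩ := root_core Q (fun c => γ c / β c) ht (by
    intro c σ _
    rw [hQ']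
    simp only [hline]
    have hq' : q + (γ c / β c) • w ∈ L := L.add_mem hq (L.smul_mem _ hw)
    have h1 := hNet p (q + (γ c / β c) • w) w
      (a₁ • p + (σ * b₁) • (q + (γ c / β c) • w)) (a₂ • p + (σ * b₂) • (q + (γ c / β c) • w))
      (f c ::ₘ Multiset.map (fun i => a i • p + (σ * a' i) • (q + (γ c / β c) • w))
        (Finset.univ : Finset (Fin N)).val)
      (Multiset.map f (Finset.univ.erase c).val) v S R hp hq' hw (hmem _ _ _) (hmem _ _ _)
      (by
        intro z hz
        rcases Multiset.mem_cons.1 hz with rfl | hz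
        · rw [hf c]
          have h2 : α c • p + β c • q + γ c • w =
              α c • p + β c • (q + (γ c / β c) • w) := by
            rw [smul_add, smul_smul, mul_div_cancel₀ _ (hβ c), add_assoc]
          rw [h2]
          exact hmem _ _ _
        · obtain ⟨i, -, rfl⟩ := Multiset.mem_map.1 hz
          exact hmem _ _ _)
      (by
        intro z hz
        obtain ⟨c', -, rfl⟩ := Multiset.mem_map.1 hz
        rw [hf c']
        have h2 : α c' • p + β c' • q + γ c' • w = α c' • p +
            (β c' • (q + (γ c / β c) • w) + (γ c' - β c' * (γ c / β c)) • w) := by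
          rw [smul_add, smul_smul, sub_smul]
          abel
        rw [h2]
        refine Submodule.add_mem _ (Submodule.smul_mem _ _ (Submodule.subset_span (by simp)))
          (Submodule.add_mem _ (Submodule.smul_mem _ _ (Submodule.subset_span (by simp)))
          (Submodule.smul_mem _ _ (Submodule.subset_span (by simp)))))
      (by rw [Multiset.card_cons, Multiset.card_map]; simp)
      (by
        rw [Multiset.card_map, Finset.card_val, Finset.card_erase_of_mem (Finset.mem_univ c)]
        simp) hv hS (by omega) hvL hSL hRL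
    have h3 : (Multiset.map f (Finset.univ.erase c).val).prod =
        ∏ c' ∈ Finset.univ.erase c, f c' := rfl
    have h4 : (Multiset.map (fun i => a i • p + (σ * a' i) • (q + (γ c / β c) • w))
        (Finset.univ : Finset (Fin N)).val).prod =
        ∏ i, (a i • p + (σ * a' i) • (q + (γ c / β c) • w)) := rfl
    have h5 : (∏ c', f c') = f c * ∏ c' ∈ Finset.univ.erase c, f c' :=
      (Finset.mul_prod_erase Finset.univ f (Finset.mem_univ c)).symm
    rw [Multiset.prod_cons, h3, h4] at h1
    rw [hE, h5]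
    have h6 : f c * (∏ i, (a i • p + (σ * a' i) • (q + (γ c / β c) • w))) *
        ((∏ c' ∈ Finset.univ.erase c, f c') * R.prod) =
        (∏ i, (a i • p + (σ * a' i) • (q + (γ c / β c) • w))) *
        (f c * (∏ c' ∈ Finset.univ.erase c, f c') * R.prod) := by ring
    rw [h6] at h1
    exact h1)
  refine ⟨h, hh, fun σ => ?_⟩
  rw [hev, hQ']
  simp only [smul_smul, zero_mul, zero_smul, add_zero, mul_comm σ]

end

end Vale.Agent.P181.H534
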