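import Vale.Agent.P181.H534.Net2

/-!
The net step: downward induction on the number of common lines in the pencil.
-/

set_option autoImplicit false

open Polynomial

namespace Vale.Agent.P181.H534

open Vale.Agent.P181 Vale.Agent.P181.H536

variable {A : Type*} [CommRing A] [Algebra ℂ A]

variable {L : Submodule ℂ A} {b k j : ℕ} {G : MultilinearMap ℂ (fun _ : Fin (k + 1) => A) ℂ}

/-- The stage for generic lines. -/
lemma net_stage_gen {N s : ℕ} (hNet : Net L b G j (N + 1) s) (hs : N + k * (N + 2) < 2 * (s + 1))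
    {p q w : A} (hp : p ∈ L) (hq : q ∈ L)
    (hw : w ∈ L) (a₁ b₁ a₂ b₂ : ℂ) (a a' : Fin N → ℂ) (f : Fin (s + 1) → A)
    (α β γ : Fin (s + 1) → ℂ) (hf : ∀ c, f c = α c • p + β c • q + γ c • w)
    (hα : ∀ c, α c ≠ 0) (hβ : ∀ c, β c ≠ 0) (ht : Function.Injective (fun c => γ c / β c))
    (ht' : Function.Injective (fun c => γ c / α c)) (v S R : Multiset A)
    (hv : Multiset.card v = j + 2) (hS : Multiset.card S = j)
    (hb : j + 2 + (N + (s + 1 + Multiset.card R)) = b)
    (hvL : ∀ x ∈ v, x ∈ L) (hSL : ∀ x ∈ S, x ∈ L) (hRL : ∀ x ∈ R, x ∈ L) :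
      G.curryLeft (v.prod * ((∏ i, (a i • p + a' i • q)) * ((∏ c, f c) * R.prod)))
        (fun _ => (a₁ • p + b₁ • q) * (a₂ • p + b₂ • q) *
          (S.prod * ((∏ i, (a i • p + a' i • q)) * ((∏ c, f c) * R.prod)))) = 0 := by
  obtain ⟨h, hh, hhe⟩ := net_end hNet hp hq hw a₁ b₁ a₂ b₂ a a' f α β γ hf hβ ht v S R hv hS hb
    hvL hSL hRL
  obtain ⟨g, hg, hge⟩ := net_end hNet hq hp hw b₁ a₁ b₂ a₂ a' a f β α γ
    (fun c => by rw [hf c, add_comm (α c • p)]) hα ht' v S R hv hS hb hvL hSL hRL
  have h0 : h = 0 := by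
    apply order_core hs h g hh hg
    intro σ hσ
    rw [hhe, hge]
    have hline : ∀ x y : ℂ, x • p + (y * σ) • q = σ • (y • q + (x * σ⁻¹) • p) := by
      intro x y
      rw [smul_add, smul_smul, smul_smul, mul_comm σ y, mul_comm x, mul_inv_cancel_left₀ hσ,
        add_comm]
    simp only [hline]
    have hprod : ∏ i, σ • (a' i • q + (a i * σ⁻¹) • p) =
        σ ^ N • ∏ i, (a' i • q + (a i * σ⁻¹) • p) := by
      rw [Finset.prod_smul, Finset.prod_const, Finset.card_univ, Fintype.card_fin]
    rw [hprod, smul_mul_assoc, mul_smul_comm, smul_mul_smul_comm, mul_smul_comm,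
      smul_mul_smul_comm, map_smul, smul_apply, MultilinearMap.map_smul_univ, Finset.prod_const,
      Finset.card_univ, Fintype.card_fin, smul_eq_mul, smul_eq_mul, ← mul_assoc]
    congr 1
    rw [← pow_two, ← pow_add, ← pow_mul, ← pow_add]
    congr 1
    ring
  have h1 := hhe 1
  rw [h0, eval_zero] at h1
  simp only [mul_one] at h1
  exact h1.symm

lemma net_stage {N s : ℕ} (hNet : Net L b G j (N + 1) s)
    (hs : N + k * (N + 2) < 2 * (s + 1)) : Net L b G j N (s + 1) := by
  intro p q w m₁ m₂ T off v S R hp hq hw hm₁ hm₂ hT hoff hTc hoffc hv hS hb hvL hSL hRL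
  obtain ⟨g, hg⟩ := exists_fin_map T N hTc
  obtain ⟨f, hf⟩ := exists_fin_map off (s + 1) hoffc
  have hgT : ∀ i, g i ∈ Submodule.span ℂ {p, q} := by
    intro i
    apply hT
    rw [hg]
    exact Multiset.mem_map_of_mem g (Finset.mem_univ_val i)
  have hfT : ∀ i, f i ∈ Submodule.span ℂ {p, q, w} := by
    intro i
    apply hoff
    rw [hf]
    exact Multiset.mem_map_of_mem f (Finset.mem_univ_val i)
  choose a a' ha using fun i => Submodule.mem_span_pair.1 (hgT i)
  choose α β γ hc using fun i => Submodule.mem_span_triple.1 (hfT i)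
  obtain ⟨a₁, b₁, rfl⟩ := Submodule.mem_span_pair.1 hm₁
  obtain ⟨a₂, b₂, rfl⟩ := Submodule.mem_span_pair.1 hm₂
  let d : Fin (s + 1) → A := fun c => p + q + ((c : ℕ) : ℂ) • w
  let B : ℂ[X] := (∏ c, (X + C (α c))) * (∏ c, (X + C (β c))) *
    (∏ c : Fin (s + 1), ∏ c' : Fin (s + 1),
      (if c = c' then 1 else sep (β c) (γ c) (c : ℕ) (β c') (γ c') (c' : ℕ))) *
    (∏ c : Fin (s + 1), ∏ c' : Fin (s + 1),
      (if c = c' then 1 else sep (α c) (γ c) (c : ℕ) (α c') (γ c') (c' : ℕ)))
  have hsep : ∀ x y : Fin (s + 1) → ℂ, (∏ c : Fin (s + 1), ∏ c' : Fin (s + 1),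
      (if c = c' then (1 : ℂ[X]) else sep (x c) (y c) (c : ℕ) (x c') (y c') (c' : ℕ))) ≠ 0 := by
    intro x y
    refine Finset.prod_ne_zero_iff.2 fun c _ => Finset.prod_ne_zero_iff.2 fun c' _ => ?_
    split_ifs with hii
    · exact one_ne_zero
    · apply sep_ne_zero
      intro h1
      apply hii
      exact Fin.ext (by exact_mod_cast h1)
  have hB : B ≠ 0 := by
    refine mul_ne_zero (mul_ne_zero (mul_ne_zero
      (Finset.prod_ne_zero_iff.2 fun i _ => X_add_C_ne_zero _)
      (Finset.prod_ne_zero_iff.2 fun i _ => X_add_C_ne_zero _)) (hsep _ _)) (hsep _ _)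
  have key := limit_generic G
    (C v.prod * (C (∏ i, g i) * ((∏ c, (C (f c) + X * C (d c))) * C R.prod)))
    (C ((a₁ • p + b₁ • q) * (a₂ • p + b₂ • q)) *
      (C S.prod * (C (∏ i, g i) * ((∏ c, (C (f c) + X * C (d c))) * C R.prod)))) B hB (by
    intro t ht
    simp only [B, eval_mul, eval_prod, eval_add, eval_X, eval_C, mul_ne_zero_iff,
      Finset.prod_ne_zero_iff, Finset.mem_univ, true_implies, ne_eq] at ht
    obtain ⟨⟨⟨h1, h2⟩, h3⟩, h4⟩ := ht
    have h1' : ∀ c, α c + t ≠ 0 := by intro i; rw [add_comm]; exact h1 i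
    have h2' : ∀ c, β c + t ≠ 0 := by intro i; rw [add_comm]; exact h2 i
    simp only [eval_mul, eval_prod, eval_add, eval_X, eval_C, ← Algebra.smul_def]
    have h5 := net_stage_gen hNet hs hp hq hw a₁ b₁ a₂ b₂ a a' (fun c => f c + t • d c)
      (fun c => α c + t) (fun c => β c + t) (fun c => γ c + t * ((c : ℕ) : ℂ)) (by
        intro c
        simp only [d]
        rw [← hc c, smul_add, smul_add, smul_smul, add_smul, add_smul, add_smul]
        abel) h1' h2' (by
        intro c c' hcc
        by_contra hne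
        have h7 := h3 c c'
        rw [if_neg hne] at h7
        exact sep_eval _ _ _ _ _ _ t (h2' c) (h2' c') h7 hcc) (by
        intro c c' hcc
        by_contra hne
        have h7 := h4 c c'
        rw [if_neg hne] at h7
        exact sep_eval _ _ _ _ _ _ t (h1' c) (h1' c') h7 hcc) v S R hv hS hb hvL hSL hRL
    simp only [ha] at h5
    exact h5) 0
  simp only [eval_mul, eval_prod, eval_add, eval_X, eval_C, map_zero, zero_mul, add_zero] at key
  rw [hg, hf]
  exact key

/-- **The net step.** -/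
theorem net_all {M : ℕ} (hM : k * k + 4 * k ≤ 2 * M + 2) (hD : DD L b G (j + 1)) :
    Net L b G j 0 M := by
  have key : ∀ d N s : ℕ, N + d = k → N + s = M → Net L b G j N s := by
    intro d
    induction d with
    | zero =>
      intro N s hN _
      exact net_base (by omega) hD
    | succ d ih =>
      intro N s hN hs
      obtain ⟨s', rfl⟩ : ∃ s', s = s' + 1 := by
        refine ⟨s - 1, ?_⟩
        have h1 : 1 ≤ s := by
          by_contra h0
          have h2 : N = M := by omega
          have h3 : M < k := by omega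
          nlinarith
        omega
      apply net_stage (ih (N + 1) s' (by omega) (by omega))
      have h1 : N + 1 ≤ k := by omega
      nlinarith
  exact key k 0 M (by omega) (by omega)

end Vale.Agent.P181.H534
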