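import Vale.Agent.P181.H534.Net3

/-!
The net step with vectors of the first slot in the net: each gives one more order of vanishing at
both ends.
-/

set_option autoImplicit false

open Polynomial

namespace Vale.Agent.P181.H534

open Vale.Agent.P181 Vale.Agent.P181.H536

lemma root_aux {s : ℕ} (P : ℂ[X][X]) (t : Fin s → ℂ) (ht : Function.Injective t)
    (hroot : ∀ c, P.eval (C (t c) * X) = 0) : X ^ s ∣ P.eval 0 := by
  by_cases hP0 : P = 0
  · rw [hP0, eval_zero]; exact dvd_zero _
  let m : Multiset ℂ[X] := (Finset.univ : Finset (Fin s)).val.map (fun c => C (t c) * X)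
  have hm : m.Nodup := by
    apply Multiset.Nodup.map _ Finset.univ.nodup
    intro c c' hcc
    have h1 := congrArg (fun q : ℂ[X] => q.coeff 1) hcc
    simp only [coeff_C_mul, coeff_X_one, mul_one] at h1
    exact ht h1
  have hle : m ≤ P.roots := by
    rw [Multiset.le_iff_subset hm]
    intro a ha
    obtain ⟨c, -, rfl⟩ := Multiset.mem_map.1 ha
    rw [mem_roots hP0]
    exact hroot c
  obtain ⟨R, hR⟩ := (Multiset.prod_X_sub_C_dvd_iff_le_roots hP0 m).2 hle
  rw [hR, eval_mul]
  apply Dvd.dvd.mul_right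
  rw [eval_multiset_prod, Multiset.map_map, Multiset.map_map]
  have h1 : (Multiset.map ((eval 0 ∘ fun a : ℂ[X] => (X : ℂ[X][X]) - C a) ∘ fun c => C (t c) * X)
      (Finset.univ : Finset (Fin s)).val).prod = ∏ c : Fin s, (X * C (-(t c)) : ℂ[X]) := by
    apply Finset.prod_congr rfl
    intro c _
    simp only [Function.comp_apply, eval_sub, eval_X, eval_C, zero_sub, map_neg]
    ring
  rw [h1, Finset.prod_mul_distrib, Finset.prod_const, Finset.card_univ, Fintype.card_fin]
  exact Dvd.intro _ rfl

/-- A polynomial in two variables as an iterated polynomial. -/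
noncomputable def two (Q : MvPolynomial (Fin 2) ℂ) : ℂ[X][X] :=
  MvPolynomial.aeval (![C X, X] : Fin 2 → ℂ[X][X]) Q

lemma two_eval (Q : MvPolynomial (Fin 2) ℂ) (u : ℂ[X]) (σ : ℂ) :
    ((two Q).eval u).eval σ = MvPolynomial.eval ![σ, u.eval σ] Q := by
  have h1 : ((Polynomial.aeval σ : ℂ[X] →ₐ[ℂ] ℂ).comp
      ((Polynomial.aeval u : ℂ[X][X] →ₐ[ℂ[X]] ℂ[X]).restrictScalars ℂ)).comp
      (MvPolynomial.aeval (![C X, X] : Fin 2 → ℂ[X][X])) =
      MvPolynomial.aeval ![σ, u.eval σ] := by
    apply MvPolynomial.algHom_ext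
    intro i
    fin_cases i
    · simp
    · simp
  have h2 := congrArg (fun f => f Q) h1
  simp only [AlgHom.comp_apply] at h2
  rw [← MvPolynomial.coe_aeval_eq_eval, RingHom.coe_coe, ← h2]
  simp only [two, AlgHom.restrictScalars_apply, Polynomial.coe_aeval_eq_eval]

/-- Vanishing on `s` lines through the origin, and divisibility by the `i`-th power of the first
variable. -/
lemma root_core' {s i : ℕ} (Q Q' : MvPolynomial (Fin 2) ℂ) (t : Fin s → ℂ)
    (ht : Function.Injective t)
    (h0 : ∀ c, ∀ σ : ℂ, σ ≠ 0 → MvPolynomial.eval ![σ, σ * t c] Q = 0)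
    (h1 : ∀ σ τ : ℂ, τ ^ i * MvPolynomial.eval ![σ, τ] Q =
      (-σ) ^ i * MvPolynomial.eval ![σ, τ] Q') :
    ∃ h : ℂ[X], X ^ (s + i) ∣ h ∧ ∀ σ, h.eval σ = MvPolynomial.eval ![σ, 0] Q := by
  have h2 : X ^ i * two Q = C ((-X) ^ i) * two Q' := by
    apply Polynomial.eq_of_infinite_eval_eq
    apply Set.Infinite.mono (s := Set.range (fun τ : ℂ => (C τ : ℂ[X])))
    · rintro _ ⟨τ, rfl⟩
      rw [Set.mem_ofPred_eq]
      apply Polynomial.funext
      intro σ
      have h3 := h1 σ τ
      simp only [eval_mul, eval_pow, eval_X, eval_C, eval_neg]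
      rw [two_eval, two_eval, eval_C]
      exact h3
    · exact Set.infinite_range_of_injective C_injective
  have h3 : C (X ^ i) ∣ two Q := by
    rw [C_dvd_iff_dvd_coeff]
    intro m
    have h4 := congrArg (fun P : ℂ[X][X] => P.coeff (m + i)) h2
    simp only [coeff_X_pow_mul, coeff_C_mul] at h4
    rw [h4, neg_pow, mul_comm ((-1) ^ i) (X ^ i), mul_assoc]
    exact Dvd.intro _ rfl
  obtain ⟨P', hP'⟩ := h3
  have hroot : ∀ c, P'.eval (C (t c) * X) = 0 := by
    intro c
    have h4 : (two Q).eval (C (t c) * X) = 0 := by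
      apply Polynomial.eq_of_infinite_eval_eq
      apply Set.Infinite.mono (s := ({0} : Set ℂ)ᶜ)
      · intro σ hσ
        rw [Set.mem_ofPred_eq, two_eval, eval_mul, eval_C, eval_X, eval_zero, mul_comm]
        exact h0 c σ hσ
      · exact (Set.finite_singleton (0 : ℂ)).infinite_compl
    rw [hP', eval_mul, eval_C] at h4
    exact (mul_eq_zero.1 h4).resolve_left (pow_ne_zero _ X_ne_zero)
  obtain ⟨R, hR⟩ := root_aux P' t ht hroot
  refine ⟨(two Q).eval 0, ?_, fun σ => by rw [two_eval, eval_zero]⟩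
  rw [hP', eval_mul, eval_C, hR]
  exact ⟨R, by ring⟩

variable {A : Type*} [CommRing A] [Algebra ℂ A]

variable {L : Submodule ℂ A} {b k j : ℕ} {G : MultilinearMap ℂ (fun _ : Fin (k + 1) => A) ℂ}

/-- As `Net`, with `i` vectors of the first slot in the third direction. -/
def NetV (L : Submodule ℂ A) (b : ℕ) {k : ℕ} (G : MultilinearMap ℂ (fun _ : Fin (k + 1) => A) ℂ)
    (j i N s : ℕ) : Prop :=
  ∀ (p q w : A) (T off v S R : Multiset A), p ∈ L → q ∈ L → w ∈ L →
    (∀ z ∈ T, z ∈ Submodule.span ℂ {p, q}) →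
    (∀ z ∈ off, z ∈ Submodule.span ℂ {p, q, w}) →
    Multiset.card T = N → Multiset.card off = s → Multiset.card v + i = j + 2 →
    Multiset.card S = j → j + 2 + (N + (s + Multiset.card R)) = b →
    (∀ z ∈ v, z ∈ L) → (∀ z ∈ S, z ∈ L) → (∀ z ∈ R, z ∈ L) →
    G.curryLeft (w ^ i * v.prod * (T.prod * (off.prod * R.prod)))
      (fun _ => p * q * (S.prod * (T.prod * (off.prod * R.prod)))) = 0

lemma netV_base {N s i : ℕ} (hk : k ≤ N) (hD : DD L b G (j + 1)) : NetV L b G j i N s := by
  intro p q w T off v S R hp hq hw hT hoff hTc hoffc hv hS hb hvL hSL hRL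
  have h1 := net_base (s := s) hk hD p q w p q T off (Multiset.replicate i w + v) S R hp hq hw
    (Submodule.subset_span (by simp)) (Submodule.subset_span (by simp)) hT hoff hTc hoffc
    (by rw [Multiset.card_add, Multiset.card_replicate]; omega) hS hb (by
      intro z hz
      rcases Multiset.mem_add.1 hz with hz | hz
      · rw [Multiset.eq_of_mem_replicate hz]; exact hw
      · exact hvL z hz) hSL hRL
  rw [Multiset.prod_add, Multiset.prod_replicate] at h1
  exact h1

/-- The first slot may be moved along the main line. -/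
lemma slot_move {i : ℕ} (hi : i ≤ 2) (hD : DD L b G (j + 1)) {p q w : A} (hp : p ∈ L)
    (hq : q ∈ L) (hw : w ∈ L) (σ τ : ℂ) (v S R : Multiset A) (hv : Multiset.card v + i = j + 2)
    (hS : Multiset.card S = j) (hb : j + 2 + Multiset.card R = b)
    (hvL : ∀ x ∈ v, x ∈ L) (hSL : ∀ x ∈ S, x ∈ L) (hRL : ∀ x ∈ R, x ∈ L) :
    τ ^ i * G.curryLeft (w ^ i * v.prod * R.prod)
      (fun _ => p * (σ • q + τ • w) * (S.prod * R.prod)) =
    (-σ) ^ i * G.curryLeft (q ^ i * v.prod * R.prod)
      (fun _ => p * (σ • q + τ • w) * (S.prod * R.prod)) := by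
  have hl : σ • q + τ • w ∈ L := L.add_mem (L.smul_mem _ hq) (L.smul_mem _ hw)
  have hl' : τ • w - σ • q ∈ L := L.sub_mem (L.smul_mem _ hw) (L.smul_mem _ hq)
  rcases (by omega : i = 0 ∨ i = 1 ∨ i = 2) with rfl | rfl | rfl
  · simp
  · have h1 := stepA hD hl hp v S R (by omega) hS hb hvL hSL hRL
    rw [mul_comm (σ • q + τ • w) p] at h1
    have h2 : (σ • q + τ • w) * (v.prod * R.prod) =
        σ • (q ^ 1 * v.prod * R.prod) + τ • (w ^ 1 * v.prod * R.prod) := by
      rw [add_mul, smul_mul_assoc, smul_mul_assoc, pow_one, pow_one, mul_assoc, mul_assoc]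
    rw [h2, map_add, map_smul, map_smul, add_apply, smul_apply, smul_apply, smul_eq_mul,
      smul_eq_mul] at h1
    linear_combination h1
  · have h1 := stepA hD hl hp ((τ • w - σ • q) ::ₘ v) S R (by rw [Multiset.card_cons]; omega) hS
      hb (by
        intro x hx
        rcases Multiset.mem_cons.1 hx with rfl | hx
        · exact hl'
        · exact hvL x hx) hSL hRL
    rw [mul_comm (σ • q + τ • w) p, Multiset.prod_cons] at h1
    have h2 : (σ • q + τ • w) * ((τ • w - σ • q) * v.prod * R.prod) =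
        (τ ^ 2) • (w ^ 2 * v.prod * R.prod) - (σ ^ 2) • (q ^ 2 * v.prod * R.prod) := by
      simp only [Algebra.smul_def, map_pow]
      ring
    rw [h2, map_sub, map_smul, map_smul, sub_apply, smul_apply, smul_apply, smul_eq_mul,
      smul_eq_mul] at h1
    linear_combination h1

/-- One end of the pencil. -/
lemma netV_end {N s i : ℕ} (hi : i ≤ 2) (hD : DD L b G (j + 1))
    (hNet : ∀ s', s = s' + 1 → NetV L b G j i (N + 1) s') {p q w : A} (hp : p ∈ L) (hq : q ∈ L)
    (hw : w ∈ L) (a a' : Fin N → ℂ) (f : Fin s → A)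
    (α β γ : Fin s → ℂ) (hf : ∀ c, f c = α c • p + β c • q + γ c • w)
    (hβ : ∀ c, β c ≠ 0) (ht : Function.Injective (fun c => γ c / β c)) (v S R : Multiset A)
    (hv : Multiset.card v + i = j + 2) (hS : Multiset.card S = j)
    (hb : j + 2 + (N + (s + Multiset.card R)) = b)
    (hvL : ∀ x ∈ v, x ∈ L) (hSL : ∀ x ∈ S, x ∈ L) (hRL : ∀ x ∈ R, x ∈ L) :
    ∃ h : ℂ[X], X ^ (s + i) ∣ h ∧ ∀ σ : ℂ, h.eval σ =
      G.curryLeft (w ^ i * v.prod *
          ((∏ i, (a i • p + (a' i * σ) • q)) * ((∏ c, f c) * R.prod)))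
        (fun _ => p * (σ • q) *
          (S.prod * ((∏ i, (a i • p + (a' i * σ) • q)) * ((∏ c, f c) * R.prod)))) := by
  classical
  set E : A := (∏ c, f c) * R.prod with hE
  have hQex : ∀ x : A, ∃ Q : MvPolynomial (Fin 2) ℂ, ∀ σ τ : ℂ, MvPolynomial.eval ![σ, τ] Q =
      G.curryLeft (x ^ i * v.prod *
          ((∏ i, (a i • p + σ • (a' i • q) + τ • (a' i • w))) * E))
        (fun _ => p * (σ • q + τ • w) *
          (S.prod * ((∏ i, (a i • p + σ • (a' i • q) + τ • (a' i • w))) * E))) := by
    intro x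
    obtain ⟨Q, hQ, -⟩ := mv_exists (σ := Fin 2) G
      (Fin.cons (MvPolynomial.C (x ^ i * v.prod) * ((∏ i, (MvPolynomial.C (a i • p) +
          MvPolynomial.X 0 * MvPolynomial.C (a' i • q) +
          MvPolynomial.X 1 * MvPolynomial.C (a' i • w))) * MvPolynomial.C E))
        (fun _ => MvPolynomial.C p *
          (MvPolynomial.X 0 * MvPolynomial.C q + MvPolynomial.X 1 * MvPolynomial.C w) *
          (MvPolynomial.C S.prod *
          ((∏ i, (MvPolynomial.C (a i • p) +
          MvPolynomial.X 0 * MvPolynomial.C (a' i • q) +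
          MvPolynomial.X 1 * MvPolynomial.C (a' i • w))) * MvPolynomial.C E))))
    refine ⟨Q, fun σ τ => ?_⟩
    rw [hQ, MultilinearMap.curryLeft_apply]
    congr 1
    funext i
    refine Fin.cases ?_ (fun i => ?_) i
    · simp only [Fin.cons_zero, map_mul, map_prod, map_add, evA_C, evA_X, Matrix.cons_val_zero,
        Matrix.cons_val_one, ← Algebra.smul_def]
    · simp only [Fin.cons_succ, map_mul, map_prod, map_add, evA_C, evA_X, Matrix.cons_val_zero,
        Matrix.cons_val_one, ← Algebra.smul_def]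
  obtain ⟨Q, hQ⟩ := hQex w
  obtain ⟨Q', hQ'⟩ := hQex q
  have hline : ∀ (x y σ t : ℂ), x • p + σ • (y • q) + (σ * t) • (y • w) =
      x • p + y • (σ • (q + t • w)) := by
    intro x y σ t
    simp only [Algebra.smul_def, map_mul]
    ring
  have hmem : ∀ (x y : ℂ) (r : A), x • p + y • r ∈ Submodule.span ℂ {p, r} :=
    fun x y r => Submodule.mem_span_pair.2 ⟨x, y, rfl⟩
  have hfL : ∀ c, f c ∈ L := by
    intro c
    rw [hf c]
    exact L.add_mem (L.add_mem (L.smul_mem _ hp) (L.smul_mem _ hq)) (L.smul_mem _ hw)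
  obtain ⟨h, hh, hev⟩ := root_core' (i := i) Q Q' (fun c => γ c / β c) ht (by
    intro c σ hσ
    obtain ⟨s', rfl⟩ : ∃ s', s = s' + 1 := ⟨s - 1, by have := c.2; omega⟩
    rw [hQ]
    have hmain : σ • q + (σ * (γ c / β c)) • w = σ • (q + (γ c / β c) • w) := by
      rw [smul_add, smul_smul]
    simp only [hline, hmain]
    have hq' : q + (γ c / β c) • w ∈ L := L.add_mem hq (L.smul_mem _ hw)
    have h1 := hNet s' rfl p (σ • (q + (γ c / β c) • w)) w
      (f c ::ₘ Multiset.map (fun i => a i • p + a' i • (σ • (q + (γ c / β c) • w)))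
        (Finset.univ : Finset (Fin N)).val)
      (Multiset.map f (Finset.univ.erase c).val) v S R hp (L.smul_mem _ hq') hw
      (by
        intro z hz
        rcases Multiset.mem_cons.1 hz with rfl | hz
        · rw [hf c]
          have h2 : α c • p + β c • q + γ c • w =
              α c • p + (β c * σ⁻¹) • (σ • (q + (γ c / β c) • w)) := by
            rw [smul_smul, mul_assoc, inv_mul_cancel₀ hσ, mul_one, smul_add, smul_smul,
              mul_div_cancel₀ _ (hβ c), add_assoc]
          rw [h2]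
          exact hmem _ _ _
        · obtain ⟨i, -, rfl⟩ := Multiset.mem_map.1 hz
          exact hmem _ _ _)
      (by
        intro z hz
        obtain ⟨c', -, rfl⟩ := Multiset.mem_map.1 hz
        rw [hf c']
        have h2 : α c' • p + β c' • q + γ c' • w = α c' • p +
            ((β c' * σ⁻¹) • (σ • (q + (γ c / β c) • w)) + (γ c' - β c' * (γ c / β c)) • w) := by
          rw [smul_smul, mul_assoc, inv_mul_cancel₀ hσ, mul_one, smul_add, smul_smul, sub_smul]
          abel
        rw [h2]
        refine Submodule.add_mem _ (Submodule.smul_mem _ _ (Submodule.subset_span (by simp)))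
          (Submodule.add_mem _ (Submodule.smul_mem _ _ (Submodule.subset_span (by simp)))
          (Submodule.smul_mem _ _ (Submodule.subset_span (by simp)))))
      (by rw [Multiset.card_cons, Multiset.card_map]; simp)
      (by
        rw [Multiset.card_map, Finset.card_val, Finset.card_erase_of_mem (Finset.mem_univ c)]
        simp) hv hS (by omega) hvL hSL hRL
    have h3 : (Multiset.map f (Finset.univ.erase c).val).prod =
        ∏ c' ∈ Finset.univ.erase c, f c' := rfl
    have h4 : (Multiset.map (fun i => a i • p + a' i • (σ • (q + (γ c / β c) • w)))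
        (Finset.univ : Finset (Fin N)).val).prod =
        ∏ i, (a i • p + a' i • (σ • (q + (γ c / β c) • w))) := rfl
    have h5 : (∏ c', f c') = f c * ∏ c' ∈ Finset.univ.erase c, f c' :=
      (Finset.mul_prod_erase Finset.univ f (Finset.mem_univ c)).symm
    rw [Multiset.prod_cons, h3, h4] at h1
    rw [hE, h5]
    have h6 : f c * (∏ i, (a i • p + a' i • (σ • (q + (γ c / β c) • w)))) *
        ((∏ c' ∈ Finset.univ.erase c, f c') * R.prod) =
        (∏ i, (a i • p + a' i • (σ • (q + (γ c / β c) • w)))) *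
        (f c * (∏ c' ∈ Finset.univ.erase c, f c') * R.prod) := by ring
    rw [h6] at h1
    exact h1) (by
    intro σ τ
    rw [hQ, hQ']
    have h1 := slot_move hi hD hp hq hw σ τ v S
      (Multiset.map (fun i => a i • p + σ • (a' i • q) + τ • (a' i • w))
        (Finset.univ : Finset (Fin N)).val +
        (Multiset.map f (Finset.univ : Finset (Fin s)).val + R)) hv hS (by
        rw [Multiset.card_add, Multiset.card_add, Multiset.card_map, Multiset.card_map]
        simpa using hb) hvL hSL (by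
        intro z hz
        rcases Multiset.mem_add.1 hz with hz | hz
        · obtain ⟨i, -, rfl⟩ := Multiset.mem_map.1 hz
          exact L.add_mem (L.add_mem (L.smul_mem _ hp) (L.smul_mem _ (L.smul_mem _ hq)))
            (L.smul_mem _ (L.smul_mem _ hw))
        · rcases Multiset.mem_add.1 hz with hz | hz
          · obtain ⟨c, -, rfl⟩ := Multiset.mem_map.1 hz
            exact hfL c
          · exact hRL z hz)
    rw [Multiset.prod_add, Multiset.prod_add] at h1
    exact h1)
  refine ⟨h, hh, fun σ => ?_⟩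
  rw [hev, hQ]
  simp only [smul_smul, zero_mul, zero_smul, add_zero, mul_comm σ]

end Vale.Agent.P181.H534
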