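import Vale.Agent.P181.H534.ThinHW

/-!
Highest weight vectors with few boxes below the first row: the form of such a vector.
-/

set_option autoImplicit false

open scoped TensorProduct Pointwise

namespace Vale.Agent.P181.H534

open Vale.Agent.P181 Vale.Agent.P181.H536 MvPolynomial H280

/-- The linear forms have roots. -/
lemma hasRoots_linS (N : ℕ) : HasRoots (linS N) := by
  intro k hk x hx y hy t
  obtain ⟨s, hs⟩ := IsAlgClosed.exists_pow_nat_eq (-t) hk
  obtain ⟨ζ, hζ⟩ : ∃ ζ : ℂ, IsPrimitiveRoot ζ k :=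
    ⟨_, Complex.isPrimitiveRoot_exp k hk.ne'⟩
  refine ⟨(Polynomial.nthRootsFinset k (1 : ℂ)).val.map (fun ω => x - (ω * s) • y), ?_, ?_, ?_⟩
  · rw [Multiset.card_map, Finset.card_val, hζ.card_nthRootsFinset]
  · intro z hz
    obtain ⟨ω, -, rfl⟩ := Multiset.mem_map.1 hz
    exact (linS N).sub_mem hx ((linS N).smul_mem _ hy)
  · have h1 : (Multiset.map (fun ω => x - (ω * s) • y)
        (Polynomial.nthRootsFinset k (1 : ℂ)).val).prod =
        ∏ ω ∈ Polynomial.nthRootsFinset k (1 : ℂ), (x - (ω * s) • y) := rfl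
    rw [h1]
    apply MvPolynomial.funext
    intro v
    rw [map_prod, map_add, map_pow, MvPolynomial.smul_eval, map_pow]
    have h2 := hζ.pow_sub_pow_eq_prod_sub_mul (eval v x) (s * eval v y) hk
    rw [mul_pow, hs] at h2
    rw [neg_mul, sub_neg_eq_add] at h2
    rw [h2]
    apply Finset.prod_congr rfl
    intro ω _
    rw [map_sub, MvPolynomial.smul_eval]
    ring

/-- The variables other than the first one. -/
noncomputable def ZZ1 (n : ℕ) : Submodule ℂ (MvPolynomial (Fin (n + 1)) ℂ) :=
  Submodule.span ℂ (Set.range (fun i : Fin n => (X i.succ : MvPolynomial (Fin (n + 1)) ℂ)))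

lemma sup_eq1 (n : ℕ) :
    Submodule.span ℂ {(X 0 : MvPolynomial (Fin (n + 1)) ℂ)} ⊔ ZZ1 n = linS (n + 1) := by
  apply le_antisymm
  · apply sup_le
    · rw [Submodule.span_le]
      rintro _ rfl
      exact X_mem_linS _
    · rw [ZZ1, Submodule.span_le]
      rintro _ ⟨i, rfl⟩
      exact X_mem_linS _
  · rw [linS, Submodule.span_le]
    rintro _ ⟨i, rfl⟩
    refine Fin.cases ?_ (fun i => ?_) i
    · exact Submodule.mem_sup_left (Submodule.subset_span rfl)
    · exact Submodule.mem_sup_right (Submodule.subset_span ⟨i, rfl⟩)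

variable {n : ℕ}

/-- Weights with respect to the first letter. -/
lemma formOf_wt1 {a b : ℕ} (lam : Fin (n + 1) → ℕ)
    (l : (Fin a → Fin b → (Fin (n + 1) → ℂ)) →₀ ℂ)
    (hx : elOf l ∈ hwSpace lam (plethAct a b (n + 1))) (c : Fin a → Fin b → Fin (n + 1))
    (hc : (Finset.univ.filter (fun x : Fin a × Fin b => c x.1 x.2 ≠ 0)).card ≠
      ∑ i : Fin n, lam i.succ) : formOf l (fun i => ∏ j, X (c i j)) = 0 := by
  classical
  let d : Fin (n + 1) → ℂ := fun i => if i ≠ 0 then 2 else 1
  have hd : ∀ i, d i ≠ 0 := by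
    intro i
    simp only [d]
    split_ifs
    · exact two_ne_zero
    · exact one_ne_zero
  have hg : IsBorel (Matrix.diagonal d) := by
    constructor
    · intro i j hij
      exact Matrix.diagonal_apply_ne d (ne_of_gt hij)
    · intro i
      rw [Matrix.diagonal_apply_eq]
      exact hd i
  have h1 := formOf_act lam l hx (Matrix.diagonal d) c
    (fun i j => d (c i j) • (X (c i j) : MvPolynomial (Fin (n + 1)) ℂ)) hg (by
      intro i j
      rw [map_smul, evL_X]
      funext v
      rw [Matrix.toLin'_apply, Matrix.mulVec_diagonal]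
      rfl)
  have h2 : (fun i => ∏ j, d (c i j) • (X (c i j) : MvPolynomial (Fin (n + 1)) ℂ)) =
      fun i => (∏ j, d (c i j)) • ∏ j, (X (c i j) : MvPolynomial (Fin (n + 1)) ℂ) := by
    funext i
    rw [Finset.prod_smul]
  rw [h2, MultilinearMap.map_smul_univ, smul_eq_mul] at h1
  have h3 : ∏ i, ∏ j, d (c i j) =
      2 ^ (Finset.univ.filter (fun x : Fin a × Fin b => c x.1 x.2 ≠ 0)).card := by
    rw [← Fintype.prod_prod_type' (fun i j => d (c i j))]
    simp only [d]
    rw [Finset.prod_ite, Finset.prod_const, Finset.prod_const_one, mul_one]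
  have h4 : ∏ i, (Matrix.diagonal d) i i ^ lam i = 2 ^ (∑ i : Fin n, lam i.succ) := by
    rw [Fin.prod_univ_succ]
    have e0 : Matrix.diagonal d 0 0 = 1 := by
      rw [Matrix.diagonal_apply_eq]; simp [d]
    have e1 : ∀ i : Fin n, Matrix.diagonal d i.succ i.succ = 2 := by
      intro i
      rw [Matrix.diagonal_apply_eq]; simp [d]
    rw [e0, one_pow, one_mul]
    simp only [e1]
    rw [Finset.prod_pow_eq_pow_sum]
  rw [h3, h4, ← sub_eq_zero, ← sub_mul] at h1
  refine (mul_eq_zero.1 h1).resolve_left ?_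
  intro h5
  rw [sub_eq_zero] at h5
  apply hc
  have h6 : (2 : ℕ) ^ (Finset.univ.filter (fun x : Fin a × Fin b => c x.1 x.2 ≠ 0)).card =
      2 ^ (∑ i : Fin n, lam i.succ) := by exact_mod_cast h5
  exact Nat.pow_right_injective (le_refl 2) h6

/-- The form of a highest weight vector has degree `λ₂ + λ₃ + ⋯` in the letters other than the
first one. -/
lemma formOf_deg1 {a b : ℕ} (lam : Fin (n + 1) → ℕ)
    (l : (Fin a → Fin b → (Fin (n + 1) → ℂ)) →₀ ℂ)
    (hx : elOf l ∈ hwSpace lam (plethAct a b (n + 1))) (d : Fin a → ℕ) (hd : ∀ i, d i ≤ b)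
    (hne : ∑ i, d i ≠ ∑ i : Fin n, lam i.succ)
    (w : Fin a → MvPolynomial (Fin (n + 1)) ℂ) (hw : ∀ i, w i ∈ ZZ1 n ^ d i) :
    formOf l (fun i => X 0 ^ (b - d i) * w i) = 0 := by
  classical
  let S : Fin a → Set (MvPolynomial (Fin (n + 1)) ℂ) := fun i =>
    Set.range (fun c : Fin (d i) → Fin n => ∏ j, (X (c j).succ : MvPolynomial (Fin (n + 1)) ℂ))
  have hS : ∀ i, w i ∈ Submodule.span ℂ (S i) := fun i =>
    span_pow_eq (fun i : Fin n => (X i.succ : MvPolynomial (Fin (n + 1)) ℂ)) _ (hw i)
  have hF : formOf l (fun i => X 0 ^ (b - d i) * w i) =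
      mulArg (formOf l) (fun i => X 0 ^ (b - d i)) w := rfl
  rw [hF]
  apply multilinear_zero_of_span' (mulArg (formOf l) (fun i => X 0 ^ (b - d i))) S _ w hS
  intro u hu
  choose c hc using hu
  -- the array of letters
  let e : Fin a → Fin b → Fin (n + 1) := fun i j =>
    if h : (j : ℕ) < d i then (c i ⟨j, h⟩).succ else 0
  have hprod : ∀ i, ∏ j, (X (e i j) : MvPolynomial (Fin (n + 1)) ℂ) = X 0 ^ (b - d i) * u i := by
    intro i
    obtain ⟨m, hm⟩ : ∃ m, b = d i + m := ⟨b - d i, by have := hd i; omega⟩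
    have h1 : ∏ j : Fin b, (X (e i j) : MvPolynomial (Fin (n + 1)) ℂ) =
        ∏ j : Fin (d i + m), (X (if h : (j : ℕ) < d i then (c i ⟨j, h⟩).succ else 0) :
          MvPolynomial (Fin (n + 1)) ℂ) := by
      apply Fintype.prod_equiv (finCongr hm)
      intro j
      rfl
    rw [h1, Fin.prod_univ_add]
    have h2 : ∀ j : Fin (d i), (X (if h : ((Fin.castAdd m j : Fin (d i + m)) : ℕ) < d i then
        (c i ⟨_, h⟩).succ else 0) : MvPolynomial (Fin (n + 1)) ℂ) = X (c i j).succ := by
      intro j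
      rw [dif_pos (by simp)]
      rfl
    have h3 : ∀ j : Fin m, (X (if h : ((Fin.natAdd (d i) j : Fin (d i + m)) : ℕ) < d i then
        (c i ⟨_, h⟩).succ else 0) : MvPolynomial (Fin (n + 1)) ℂ) = X 0 := by
      intro j
      rw [dif_neg (by simp)]
    rw [Finset.prod_congr rfl (fun j _ => h2 j), Finset.prod_congr rfl (fun j _ => h3 j),
      Finset.prod_const, Finset.card_univ, Fintype.card_fin, ← hc i]
    have h4 : b - d i = m := by omega
    rw [h4, mul_comm]
  have hu' : mulArg (formOf l) (fun i => X 0 ^ (b - d i)) u =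
      formOf l (fun i => ∏ j, X (e i j)) := by
    rw [mulArg_apply]
    congr 1
    funext i
    exact (hprod i).symm
  rw [hu']
  apply formOf_wt1 lam l hx e
  have hcard : (Finset.univ.filter (fun x : Fin a × Fin b => e x.1 x.2 ≠ 0)).card =
      ∑ i, d i := by
    rw [Finset.card_filter, Fintype.sum_prod_type]
    apply Finset.sum_congr rfl
    intro i _
    rw [← Finset.card_filter]
    have h1 : (Finset.univ.filter (fun j : Fin b => e i j ≠ 0)) =
        Finset.univ.filter (fun j : Fin b => (j : ℕ) < d i) := by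
      apply Finset.filter_congr
      intro j _
      simp only [e]
      split_ifs with h
      · simp [h]
      · simp [h]
    rw [h1]
    have h2 : (Finset.univ.filter (fun j : Fin b => (j : ℕ) < d i)).card = min (d i) b := by
      rw [Fin.card_filter_val_lt]
      exact min_comm _ _
    rw [h2]
    exact min_eq_left (hd i)
  rw [hcard]
  exact hne

end Vale.Agent.P181.H534
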