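import Vale.Agent.P181.H536.HW

/-!
Forms which vanish as soon as one argument is a multiple of the product of two elements of `Z`.
-/

set_option autoImplicit false

open Polynomial

namespace Vale.Agent.P181.H534

open Vale.Agent.P181 Vale.Agent.P181.H536

variable {A : Type*} [CommRing A] [Algebra ℂ A]

/-- `G` vanishes when one of its arguments (all in `L ^ b`) is `z₁ z₂ X` with `z₁, z₂ ∈ Z`. -/
def Thin (L Z : Submodule ℂ A) (b : ℕ) {m : ℕ}
    (G : MultilinearMap ℂ (fun _ : Fin m => A) ℂ) : Prop :=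
  2 ≤ b → ∀ P : Fin m → A, (∀ i, P i ∈ L ^ b) → ∀ i, ∀ z₁ ∈ Z, ∀ z₂ ∈ Z, ∀ X ∈ L ^ (b - 2),
    P i = z₁ * z₂ * X → G P = 0

/-- The class of forms. -/
structure ClsT (p q : A) (Z : Submodule ℂ A) (b : ℕ) {m : ℕ}
    (G : MultilinearMap ℂ (fun _ : Fin m => A) ℂ) : Prop where
  symm : IsSymm G
  isK : IsK (Submodule.span ℂ {p, q} ⊔ Z) b G
  thin : Thin (Submodule.span ℂ {p, q} ⊔ Z) Z b G

section

variable {p q : A} {Z : Submodule ℂ A} {τ : ℂ → A →ₐ[ℂ] A} {b k j : ℕ}
  {G : MultilinearMap ℂ (fun _ : Fin (k + 1) => A) ℂ}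

/-- (D) -/
lemma stepD (hG : ClsT p q Z b G)
    (v : Multiset A) (hv : Multiset.card v = j + 2) (hvZ : ∀ x ∈ v, x ∈ Z) {m : ℕ}
    (hm : j + 2 + m = b) (x y : ℂ) (s : Fin j → ℂ) (zs : Fin j → A) (hzs : ∀ i, zs i ∈ Z)
    (e : Fin m → ℂ) (ze : Fin m → A) (hze : ∀ i, ze i ∈ Z) :
    G.curryLeft (v.prod * ∏ i, (lin p q (e i) + ze i)) (fun _ => lin p q x * lin p q y *
      ((∏ i, (lin p q (s i) + zs i)) * ∏ i, (lin p q (e i) + ze i))) = 0 := by
  classical
  set L := Submodule.span ℂ {p, q} ⊔ Z with hL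
  obtain ⟨z₁, v₁, rfl⟩ : ∃ w v', v = w ::ₘ v' := by
    obtain ⟨z, hz⟩ := Multiset.card_pos_iff_exists_mem.1 (by omega : 0 < Multiset.card v)
    obtain ⟨R, hR⟩ := Multiset.exists_cons_of_mem hz
    exact ⟨z, R, hR⟩
  rw [Multiset.card_cons] at hv
  obtain ⟨z₂, v₂, rfl⟩ : ∃ w v', v₁ = w ::ₘ v' := by
    obtain ⟨z, hz⟩ := Multiset.card_pos_iff_exists_mem.1 (by omega : 0 < Multiset.card v₁)
    obtain ⟨R, hR⟩ := Multiset.exists_cons_of_mem hz
    exact ⟨z, R, hR⟩
  rw [Multiset.card_cons] at hv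
  have hE : ∏ i, (lin p q (e i) + ze i) ∈ L ^ m :=
    prod_mem_pow L _ (fun i => L.add_mem (mem_lin p q Z _) (mem_Z (hze i)))
  have hS : ∏ i, (lin p q (s i) + zs i) ∈ L ^ j :=
    prod_mem_pow L _ (fun i => L.add_mem (mem_lin p q Z _) (mem_Z (hzs i)))
  have hX : v₂.prod * ∏ i, (lin p q (e i) + ze i) ∈ L ^ (b - 2) := by
    have h1 : b - 2 = Multiset.card v₂ + m := by omega
    rw [h1, pow_add]
    exact Submodule.mul_mem_mul (multiset_prod_mem_pow L v₂ (fun x hx => mem_Z (hvZ x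
      (Multiset.mem_cons_of_mem (Multiset.mem_cons_of_mem hx))))) hE
  have hz₁ : z₁ ∈ Z := hvZ z₁ (Multiset.mem_cons_self _ _)
  have hz₂ : z₂ ∈ Z := hvZ z₂ (Multiset.mem_cons_of_mem (Multiset.mem_cons_self _ _))
  have h0 : (z₁ ::ₘ z₂ ::ₘ v₂).prod * ∏ i, (lin p q (e i) + ze i) =
      z₁ * z₂ * (v₂.prod * ∏ i, (lin p q (e i) + ze i)) := by
    rw [Multiset.prod_cons, Multiset.prod_cons]; ring
  rw [MultilinearMap.curryLeft_apply]
  refine hG.thin (by omega) _ ?_ 0 z₁ hz₁ z₂ hz₂ _ hX ?_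
  · intro i
    refine Fin.cases ?_ (fun i => ?_) i
    · rw [Fin.cons_zero, h0]
      have h1 : b = 1 + 1 + (b - 2) := by omega
      rw [h1, pow_add, pow_add, pow_one]
      exact Submodule.mul_mem_mul (Submodule.mul_mem_mul (mem_Z hz₁) (mem_Z hz₂)) hX
    · rw [Fin.cons_succ]
      have h1 : b = 2 + (j + m) := by omega
      rw [h1, pow_add, pow_add, pow_two]
      exact Submodule.mul_mem_mul (Submodule.mul_mem_mul (mem_lin p q Z _) (mem_lin p q Z _))
        (Submodule.mul_mem_mul hS hE)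
  · rw [Fin.cons_zero, h0]

lemma stepE_aux (h : Setup p q Z τ)
    (hG : ClsT p q Z b G) (hD : DD (Submodule.span ℂ {p, q} ⊔ Z) b G (j + 1)) {m : ℕ}
    (hm : j + 2 + m = b) (x y : ℂ) (hxy : x ≠ y) (s : Fin j → ℂ) (zs : Fin j → A)
    (hzs : ∀ i, zs i ∈ Z) (e : Fin m → ℂ) (_he : Function.Injective e) (ze : Fin m → A)
    (hze : ∀ i, ze i ∈ Z) (v : Multiset A) (hvL : ∀ x ∈ v, x ∈ Submodule.span ℂ {p, q} ⊔ Z) :
    ∀ w : Multiset A, Multiset.card v + Multiset.card w = j + 2 → (∀ x ∈ w, x ∈ Z) →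
    G.curryLeft (v.prod * w.prod * ∏ i, (lin p q (e i) + ze i))
      (fun _ => lin p q x * lin p q y *
        ((∏ i, (lin p q (s i) + zs i)) * ∏ i, (lin p q (e i) + ze i))) = 0 := by
  induction v using Multiset.induction with
  | empty =>
    intro w hw hwZ
    rw [Multiset.card_zero, zero_add] at hw
    rw [Multiset.prod_zero, one_mul]
    exact stepD hG w hw hwZ hm x y s zs hzs e ze hze
  | cons a v ih =>
    intro w hw hwZ
    rw [Multiset.card_cons] at hw
    obtain ⟨u, hu, z, hz, rfl⟩ := Submodule.mem_sup.1 (hvL a (Multiset.mem_cons_self _ _))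
    have hvL' : ∀ x ∈ v, x ∈ Submodule.span ℂ {p, q} ⊔ Z :=
      fun x hx => hvL x (Multiset.mem_cons_of_mem hx)
    set E : A := ∏ i, (lin p q (e i) + ze i) with hE
    set S : A := ∏ i, (lin p q (s i) + zs i) with hS
    -- the part of the vector in the pencil does not contribute
    let φ : A →ₗ[ℂ] ℂ :=
      { toFun := fun u => G.curryLeft (u * (v.prod * w.prod * E))
          (fun _ => lin p q x * lin p q y * (S * E))
        map_add' := fun a b => by rw [add_mul, map_add]; rfl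
        map_smul' := fun c a => by rw [smul_mul_assoc, map_smul]; rfl }
    have hφ : ∀ u, φ u = G.curryLeft (u * (v.prod * w.prod * E))
          (fun _ => lin p q x * lin p q y * (S * E)) := fun u => rfl
    have hA : ∀ x' y' : ℂ, lin p q x' * lin p q y' = lin p q x * lin p q y →
        φ (lin p q x') = 0 := by
      intro x' y' hxy'
      have h1 := stepA hD (mem_lin p q Z x') (mem_lin p q Z y') (v + w)
        (Multiset.map (fun i => lin p q (s i) + zs i) Finset.univ.val)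
        (Multiset.map (fun i => lin p q (e i) + ze i) Finset.univ.val)
        (by rw [Multiset.card_add]; omega) (by rw [Multiset.card_map]; simp)
        (by rw [Multiset.card_map]; simp [hm])
        (by
          intro x hx
          rcases Multiset.mem_add.1 hx with hx | hx
          · exact hvL' x hx
          · exact mem_Z (hwZ x hx))
        (by
          intro z hz
          obtain ⟨i, -, rfl⟩ := Multiset.mem_map.1 hz
          exact Submodule.add_mem _ (mem_lin p q Z _) (mem_Z (hzs i)))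
        (by
          intro z hz
          obtain ⟨i, -, rfl⟩ := Multiset.mem_map.1 hz
          exact Submodule.add_mem _ (mem_lin p q Z _) (mem_Z (hze i)))
      rw [hxy', Multiset.prod_add] at h1
      rw [hφ]
      exact h1
    have hx0 : φ (lin p q x) = 0 := hA x y rfl
    have hy0 : φ (lin p q y) = 0 := hA y x (mul_comm _ _)
    have hq0 : φ q = 0 := by
      have h1 : (x - y) • q = lin p q x - lin p q y := by
        rw [lin, lin, sub_smul]; abel
      have h2 : φ ((x - y) • q) = 0 := by rw [h1, map_sub, hx0, hy0, sub_zero]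
      rw [map_smul, smul_eq_mul] at h2
      exact (mul_eq_zero.1 h2).resolve_left (sub_ne_zero.2 hxy)
    have hp0 : φ p = 0 := by
      have h1 : φ (lin p q x) = φ p + x • φ q := by rw [lin, map_add, map_smul]
      rw [hx0, hq0, smul_zero, add_zero] at h1
      exact h1.symm
    have hu0 : φ u = 0 := by
      have h1 : Submodule.span ℂ {p, q} ≤ LinearMap.ker φ := by
        rw [Submodule.span_le]
        rintro _ (rfl | rfl)
        · exact hp0
        · exact hq0
      exact h1 hu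
    have hz0 : φ z = 0 := by
      have h1 := ih hvL' (z ::ₘ w) (by rw [Multiset.card_cons]; omega) (by
        intro x hx
        rcases Multiset.mem_cons.1 hx with rfl | hx
        · exact hz
        · exact hwZ x hx)
      rw [hφ, ← h1, Multiset.prod_cons]
      congr 2
      ring
    have h1 : (u + z) * v.prod * w.prod * E = (u + z) * (v.prod * w.prod * E) := by ring
    rw [Multiset.prod_cons, h1, ← hφ, map_add, hu0, hz0, add_zero]

/-- (E) -/
lemma stepE (h : Setup p q Z τ)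
    (hG : ClsT p q Z b G) (hD : DD (Submodule.span ℂ {p, q} ⊔ Z) b G (j + 1)) {m : ℕ}
    (hm : j + 2 + m = b) (x y : ℂ) (hxy : x ≠ y) (s : Fin j → ℂ) (zs : Fin j → A)
    (hzs : ∀ i, zs i ∈ Z) (e : Fin m → ℂ) (he : Function.Injective e) (ze : Fin m → A)
    (hze : ∀ i, ze i ∈ Z) (v : Multiset A) (hv : Multiset.card v = j + 2)
    (hvL : ∀ x ∈ v, x ∈ Submodule.span ℂ {p, q} ⊔ Z) :
    G.curryLeft (v.prod * ∏ i, (lin p q (e i) + ze i))
      (fun _ => lin p q x * lin p q y *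
        ((∏ i, (lin p q (s i) + zs i)) * ∏ i, (lin p q (e i) + ze i))) = 0 := by
  have h1 := stepE_aux h hG hD hm x y hxy s zs hzs e he ze hze v hvL 0
    (by rw [Multiset.card_zero, hv]) (by simp)
  rw [Multiset.prod_zero, mul_one] at h1
  exact h1

lemma ClsT.comp {m : ℕ} {G : MultilinearMap ℂ (fun _ : Fin m => A) ℂ} (hG : ClsT p q Z b G)
    {g : A →ₐ[ℂ] A} (hg : IsShear (Submodule.span ℂ {p, q}) Z g) :
    ClsT p q Z b (H536.comp G g) where
  symm := by
    intro σ P
    rw [comp_apply, comp_apply]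
    exact hG.symm σ (fun i => g (P i))
  isK := by
    intro m hm hmL
    rw [comp_apply, map_multiset_prod]
    apply hG.isK
    · rw [Multiset.card_map, hm]
    · intro x hx
      obtain ⟨l, hl, rfl⟩ := Multiset.mem_map.1 hx
      exact hg.map_mem (hmL l hl)
  thin := by
    have hpow : ∀ (c : ℕ) (x : A), x ∈ (Submodule.span ℂ {p, q} ⊔ Z) ^ c →
        g x ∈ (Submodule.span ℂ {p, q} ⊔ Z) ^ c := by
      intro c x hx
      have h1 : (Submodule.span ℂ {p, q} ⊔ Z).map g.toLinearMap ≤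
          Submodule.span ℂ {p, q} ⊔ Z := by
        rintro _ ⟨l, hl, rfl⟩
        exact hg.map_mem hl
      have h2 : ((Submodule.span ℂ {p, q} ⊔ Z) ^ c).map g.toLinearMap ≤
          (Submodule.span ℂ {p, q} ⊔ Z) ^ c := by
        rw [Submodule.map_pow]
        exact pow_le_pow_left' h1 c
      exact h2 ⟨x, hx, rfl⟩
    intro hb P hP i z₁ hz₁ z₂ hz₂ X hX hPi
    rw [comp_apply]
    refine hG.thin hb _ (fun i => hpow b _ (hP i)) i z₁ hz₁ z₂ hz₂ (g X) (hpow _ _ hX) ?_
    rw [hPi, map_mul, map_mul, hg.1 z₁ hz₁, hg.1 z₂ hz₂]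

/-- (F) -/
lemma stepF (h : Setup p q Z τ)
    (hG : ClsT p q Z b G)
    (hD : ∀ G : MultilinearMap ℂ (fun _ : Fin (k + 1) => A) ℂ, ClsT p q Z b G →
      DD (Submodule.span ℂ {p, q} ⊔ Z) b G (j + 1)) {m : ℕ}
    (hm : j + 2 + m = b) (x y : ℂ) (hxy : x ≠ y) (z₁ z₂ : A) (hz₁ : z₁ ∈ Z) (hz₂ : z₂ ∈ Z)
    (s : Fin j → ℂ) (zs : Fin j → A)
    (hzs : ∀ i, zs i ∈ Z) (e : Fin m → ℂ) (he : Function.Injective e) (ze : Fin m → A)
    (hze : ∀ i, ze i ∈ Z) (v : Multiset A) (hv : Multiset.card v = j + 2)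
    (hvL : ∀ x ∈ v, x ∈ Submodule.span ℂ {p, q} ⊔ Z) :
    G.curryLeft (v.prod * ∏ i, (lin p q (e i) + ze i))
      (fun _ => (lin p q x + z₁) * (lin p q y + z₂) *
        ((∏ i, (lin p q (s i) + zs i)) * ∏ i, (lin p q (e i) + ze i))) = 0 := by
  let c : A := (x - y)⁻¹ • (z₁ - z₂)
  let a : A := z₁ - x • c
  have hc : c ∈ Z := Z.smul_mem _ (Z.sub_mem hz₁ hz₂)
  have ha : a ∈ Z := Z.sub_mem hz₁ (Z.smul_mem _ hc)
  obtain ⟨g, hg, hgp, hgq⟩ := h.shear a ha c hc
  have hline : ∀ t z, z ∈ Z → g (lin p q t + (z - (a + t • c))) = lin p q t + z := by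
    intro t z hz
    rw [map_add, lin, map_add, map_smul, hgp, hgq,
      hg.1 _ (Z.sub_mem hz (Z.add_mem ha (Z.smul_mem _ hc))), smul_add]
    abel
  have hx : g (lin p q x) = lin p q x + z₁ := by
    rw [lin, map_add, map_smul, hgp, hgq, smul_add]
    simp only [a]
    abel
  have hy : g (lin p q y) = lin p q y + z₂ := by
    rw [lin, map_add, map_smul, hgp, hgq, smul_add]
    have h1 : a + y • c = z₂ := by
      have h2 : (x - y) • c = z₁ - z₂ := by
        simp only [c]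
        rw [smul_smul, mul_inv_cancel₀ (sub_ne_zero.2 hxy), one_smul]
      have h3 : a + y • c = z₁ - (x - y) • c := by
        simp only [a]
        rw [sub_smul]; abel
      rw [h3, h2]; abel
    calc p + a + (y • q + y • c) = p + y • q + (a + y • c) := by abel
      _ = _ := by rw [h1]
  obtain ⟨v', hv'c, hv'L, hv'⟩ := exists_map_eq (L := Submodule.span ℂ {p, q} ⊔ Z) (g := g)
    (fun l hl => hg.exists_preimage hl) v hvL
  have h1 := stepE h (hG.comp hg) (hD _ (hG.comp hg)) hm x y hxy s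
    (fun i => zs i - (a + s i • c)) (fun i => Z.sub_mem (hzs i) (Z.add_mem ha (Z.smul_mem _ hc)))
    e he (fun i => ze i - (a + e i • c))
    (fun i => Z.sub_mem (hze i) (Z.add_mem ha (Z.smul_mem _ hc))) v' (by rw [hv'c, hv]) hv'L
  rw [MultilinearMap.curryLeft_apply, comp_apply] at h1
  rw [← h1, MultilinearMap.curryLeft_apply]
  congr 1
  funext i
  have hE : ∏ i, (lin p q (e i) + ze i) = g (∏ i, (lin p q (e i) + (ze i - (a + e i • c)))) := by
    rw [map_prod]
    exact Finset.prod_congr rfl (fun i _ => (hline _ _ (hze i)).symm)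
  have hS : ∏ i, (lin p q (s i) + zs i) = g (∏ i, (lin p q (s i) + (zs i - (a + s i • c)))) := by
    rw [map_prod]
    exact Finset.prod_congr rfl (fun i _ => (hline _ _ (hzs i)).symm)
  refine Fin.cases ?_ (fun i => ?_) i
  · rw [Fin.cons_zero, Fin.cons_zero, map_mul, hv', ← hE]
  · rw [Fin.cons_succ, Fin.cons_succ, map_mul, map_mul, map_mul, hx, hy, ← hE, ← hS]
/-- (G) -/
lemma stepG (h : Setup p q Z τ)
    (hD : ∀ G : MultilinearMap ℂ (fun _ : Fin (k + 1) => A) ℂ, ClsT p q Z b G →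
      DD (Submodule.span ℂ {p, q} ⊔ Z) b G (j + 1))
    (hG : ClsT p q Z b G) : DD (Submodule.span ℂ {p, q} ⊔ Z) b G (j + 2) := by
  intro v S R hv hS hR hvL hSL hRL
  obtain ⟨l₁, S₁, rfl⟩ : ∃ w v', S = w ::ₘ v' := by
    obtain ⟨z, hz⟩ := Multiset.card_pos_iff_exists_mem.1 (by omega : 0 < Multiset.card S)
    obtain ⟨R, hR⟩ := Multiset.exists_cons_of_mem hz
    exact ⟨z, R, hR⟩
  rw [Multiset.card_cons] at hS
  obtain ⟨l₂, S₂, rfl⟩ : ∃ w v', S₁ = w ::ₘ v' := by
    obtain ⟨z, hz⟩ := Multiset.card_pos_iff_exists_mem.1 (by omega : 0 < Multiset.card S₁)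
    obtain ⟨R, hR⟩ := Multiset.exists_cons_of_mem hz
    exact ⟨z, R, hR⟩
  rw [Multiset.card_cons] at hS
  obtain ⟨f, hf⟩ := exists_fin_map S₂ j (by omega)
  obtain ⟨m, hm⟩ : ∃ m, Multiset.card R = m := ⟨_, rfl⟩
  obtain ⟨g, hg⟩ := exists_fin_map R m hm
  have hfL : ∀ i, f i ∈ Submodule.span ℂ {p, q} ⊔ Z := by
    intro i
    apply hSL
    rw [hf]
    exact Multiset.mem_cons_of_mem (Multiset.mem_cons_of_mem
      (Multiset.mem_map_of_mem f (Finset.mem_univ_val i)))
  have hgL : ∀ i, g i ∈ Submodule.span ℂ {p, q} ⊔ Z := by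
    intro i
    apply hRL
    rw [hg]
    exact Multiset.mem_map_of_mem g (Finset.mem_univ_val i)
  obtain ⟨α₁, β₁, z₁, hz₁, hl₁⟩ := exists_coords (hSL l₁ (Multiset.mem_cons_self _ _))
  obtain ⟨α₂, β₂, z₂, hz₂, hl₂⟩ := exists_coords
    (hSL l₂ (Multiset.mem_cons_of_mem (Multiset.mem_cons_self _ _)))
  choose αs βs zs hzs hfs using fun i => exists_coords (hfL i)
  choose αe βe ze hze hge using fun i => exists_coords (hgL i)
  obtain ⟨P, hP⟩ := poly_exists G (Fin.cons (C v.prod * ∏ i, (C (g i) + X * C (p + (i : ℂ) • q)))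
    (fun _ => (C l₁ + X * C (p + (0 : ℂ) • q)) * (C l₂ + X * C (p + (1 : ℂ) • q)) *
      ((∏ i, (C (f i) + X * C (p + (0 : ℂ) • q))) * ∏ i, (C (g i) + X * C (p + (i : ℂ) • q)))))
  have hP' : ∀ t, P.eval t = G.curryLeft (v.prod * ∏ i, (g i + t • (p + ((i : ℕ) : ℂ) • q)))
      (fun _ => (l₁ + t • (p + (0 : ℂ) • q)) * (l₂ + t • (p + (1 : ℂ) • q)) *
        ((∏ i, (f i + t • (p + (0 : ℂ) • q))) * ∏ i, (g i + t • (p + ((i : ℕ) : ℂ) • q)))) := by
    intro t
    rw [hP, MultilinearMap.curryLeft_apply]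
    congr 1
    funext i
    refine Fin.cases ?_ (fun i => ?_) i
    · simp only [Fin.cons_zero, eval_mul, eval_prod, eval_add, eval_C, eval_X, Algebra.smul_def]
    · simp only [Fin.cons_succ, eval_mul, eval_prod, eval_add, eval_C, eval_X, Algebra.smul_def]
  let B : ℂ[X] := (X + C α₁) * (X + C α₂) * (∏ i, (X + C (αs i))) * (∏ i, (X + C (αe i))) *
    sep α₁ β₁ 0 α₂ β₂ 1 * ∏ i : Fin m, ∏ i' : Fin m,
      (if i = i' then 1 else sep (αe i) (βe i) (i : ℕ) (αe i') (βe i') (i' : ℕ))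
  have hB : B ≠ 0 := by
    refine mul_ne_zero (mul_ne_zero (mul_ne_zero (mul_ne_zero (mul_ne_zero (X_add_C_ne_zero _)
      (X_add_C_ne_zero _)) (Finset.prod_ne_zero_iff.2 fun i _ => X_add_C_ne_zero _))
      (Finset.prod_ne_zero_iff.2 fun i _ => X_add_C_ne_zero _))
      (sep_ne_zero _ _ _ _ _ _ zero_ne_one)) (Finset.prod_ne_zero_iff.2 fun i _ =>
        Finset.prod_ne_zero_iff.2 fun i' _ => ?_)
    split_ifs with hii
    · exact one_ne_zero
    · apply sep_ne_zero
      intro h1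
      apply hii
      exact Fin.ext (by exact_mod_cast h1)
  have hPB : B * P = 0 := by
    apply Polynomial.funext
    intro t
    rw [eval_mul, eval_zero]
    by_cases hBt : B.eval t = 0
    · rw [hBt, zero_mul]
    rw [mul_eq_zero]
    right
    simp only [B, eval_mul, eval_prod, eval_add, eval_X, eval_C, mul_ne_zero_iff,
      Finset.prod_ne_zero_iff, Finset.mem_univ, true_implies, ne_eq] at hBt
    obtain ⟨⟨⟨⟨⟨h1, h2⟩, h3⟩, h4⟩, h5⟩, h6⟩ := hBt
    have h1' : α₁ + t ≠ 0 := by rw [add_comm]; exact h1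
    have h2' : α₂ + t ≠ 0 := by rw [add_comm]; exact h2
    have h3' : ∀ i, αs i + t ≠ 0 := by intro i; rw [add_comm]; exact h3 i
    have h4' : ∀ i, αe i + t ≠ 0 := by intro i; rw [add_comm]; exact h4 i
    have hinj : Function.Injective
        (fun i : Fin m => (βe i + t * ((i : ℕ) : ℂ)) / (αe i + t)) := by
      intro i i' hii
      by_contra hne
      have h7 := h6 i i'
      rw [if_neg hne] at h7
      exact sep_eval _ _ _ _ _ _ t (h4' i) (h4' i') h7 hii
    have h7 := stepF h hG hD (m := m) (by omega)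
      ((β₁ + t * 0) / (α₁ + t)) ((β₂ + t * 1) / (α₂ + t))
      (sep_eval _ _ _ _ _ _ t h1' h2' h5) ((α₁ + t)⁻¹ • z₁) ((α₂ + t)⁻¹ • z₂)
      (Z.smul_mem _ hz₁) (Z.smul_mem _ hz₂) (fun i => (βs i + t * 0) / (αs i + t))
      (fun i => (αs i + t)⁻¹ • zs i) (fun i => Z.smul_mem _ (hzs i))
      (fun i => (βe i + t * ((i : ℕ) : ℂ)) / (αe i + t)) hinj
      (fun i => (αe i + t)⁻¹ • ze i) (fun i => Z.smul_mem _ (hze i)) v hv hvL
    have hE : ∏ i, (g i + t • (p + ((i : ℕ) : ℂ) • q)) = (∏ i, (αe i + t)) •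
        ∏ i : Fin m, (lin p q ((βe i + t * ((i : ℕ) : ℂ)) / (αe i + t)) + (αe i + t)⁻¹ • ze i) := by
      rw [← Finset.prod_smul]
      apply Finset.prod_congr rfl
      intro i _
      rw [hge i, line_eq p q (ze i) _ _ _ _ (h4' i)]
    have hS : ∏ i, (f i + t • (p + (0 : ℂ) • q)) = (∏ i, (αs i + t)) •
        ∏ i : Fin j, (lin p q ((βs i + t * 0) / (αs i + t)) + (αs i + t)⁻¹ • zs i) := by
      rw [← Finset.prod_smul]
      apply Finset.prod_congr rfl
      intro i _
      rw [hfs i, line_eq p q (zs i) _ _ _ _ (h3' i)]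
    rw [hP', hE, hS, hl₁, hl₂, line_eq p q z₁ _ _ _ _ h1', line_eq p q z₂ _ _ _ _ h2']
    rw [mul_smul_comm, smul_mul_smul_comm, smul_mul_smul_comm, smul_mul_smul_comm]
    exact curryLeft_smul_smul G _ _ _ _ h7
  have hP0 : P = 0 := (mul_eq_zero.1 hPB).resolve_left hB
  have h1 := hP' 0
  simp only [hP0, eval_zero, zero_smul, add_zero] at h1
  rw [Multiset.prod_cons, Multiset.prod_cons, hf, hg]
  have h2 : l₁ * (l₂ * (Multiset.map f Finset.univ.val).prod) *
      (Multiset.map g Finset.univ.val).prod = l₁ * l₂ * ((∏ i, f i) * ∏ i, g i) := by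
    have h3 : (Multiset.map f Finset.univ.val).prod = ∏ i, f i := rfl
    have h4 : (Multiset.map g Finset.univ.val).prod = ∏ i, g i := rfl
    rw [h3, h4]
    ring
  rw [h2]
  exact h1.symm


theorem DD_all (h : Setup p q Z τ) (j : ℕ) :
    ∀ G : MultilinearMap ℂ (fun _ : Fin (k + 1) => A) ℂ, ClsT p q Z b G →
      DD (Submodule.span ℂ {p, q} ⊔ Z) b G j := by
  have key : ∀ j, (∀ G : MultilinearMap ℂ (fun _ : Fin (k + 1) => A) ℂ, ClsT p q Z b G →
      DD (Submodule.span ℂ {p, q} ⊔ Z) b G j) ∧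
      (∀ G : MultilinearMap ℂ (fun _ : Fin (k + 1) => A) ℂ, ClsT p q Z b G →
      DD (Submodule.span ℂ {p, q} ⊔ Z) b G (j + 1)) := by
    intro j
    induction j with
    | zero => exact ⟨fun G hG => DD_zero hG.isK, fun G hG => DD_one hG.symm hG.isK⟩
    | succ j ih => exact ⟨ih.2, fun G hG => stepG h ih.2 hG⟩
  exact (key j).1

end

/-- **Vanishing theorem.** -/
theorem thin_main {p q : A} {Z : Submodule ℂ A} {τ : ℂ → A →ₐ[ℂ] A} {b : ℕ}
    (h : Setup p q Z τ) (a : ℕ) :
    ∀ F : MultilinearMap ℂ (fun _ : Fin a => A) ℂ, ClsT p q Z b F →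
      ∀ P : Fin a → A, (∀ i, P i ∈ (Submodule.span ℂ {p, q} ⊔ Z) ^ b) → F P = 0 := by
  induction a with
  | zero =>
    intro F hF P _
    have h1 := hF.isK (Multiset.replicate b 0) (by simp) (by
      intro x hx
      rw [Multiset.eq_of_mem_replicate hx]; exact Submodule.zero_mem _)
    rw [← h1]
    congr 1
    funext i
    exact i.elim0
  | succ k ih =>
    intro F hF P hP
    have h1 : P = Fin.cons (P 0) (fun i => P i.succ) := by
      funext i
      refine Fin.cases ?_ (fun i => ?_) i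
      · rfl
      · rfl
    rw [h1, ← MultilinearMap.curryLeft_apply]
    refine ih (F.curryLeft (P 0)) ?_ _ (fun i => hP i.succ)
    refine ⟨hF.symm.curryLeft _, ?_, ?_⟩
    · intro m hm hmL
      have hD := DD_all (k := k) h b F hF
      let φ : A →ₗ[ℂ] ℂ :=
        { toFun := fun u => F.curryLeft u (fun _ => m.prod)
          map_add' := fun a b => by rw [map_add]; rfl
          map_smul' := fun c a => by rw [map_smul]; rfl }
      have hle : (Submodule.span ℂ {p, q} ⊔ Z) ^ b ≤ LinearMap.ker φ := by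
        refine (pow_le_span_pow _ _).trans ?_
        rw [Submodule.span_le]
        rintro _ ⟨θ, hθ, rfl⟩
        have h2 := hD (Multiset.replicate b θ) m 0 (by simp) hm (by simp)
          (fun x hx => by rw [Multiset.eq_of_mem_replicate hx]; exact hθ) hmL (by simp)
        rw [Multiset.prod_replicate, Multiset.prod_zero, mul_one, mul_one] at h2
        exact h2
      exact hle (hP 0)
    · intro hb Q hQ i z₁ hz₁ z₂ hz₂ X hX hQi
      rw [MultilinearMap.curryLeft_apply]
      refine hF.thin hb _ ?_ i.succ z₁ hz₁ z₂ hz₂ X hX ?_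
      · intro i
        refine Fin.cases ?_ (fun i => ?_) i
        · rw [Fin.cons_zero]; exact hP 0
        · rw [Fin.cons_succ]; exact hQ i
      · rw [Fin.cons_succ]; exact hQi

end Vale.Agent.P181.H534
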