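import Vale.Agent.P181.H534.Thin

/-!
Highest weight vectors with at most one box in each row below the second one.
-/

set_option autoImplicit false

open scoped TensorProduct Pointwise

namespace Vale.Agent.P181.H534

open Vale.Agent.P181 Vale.Agent.P181.H536 MvPolynomial H280

lemma multilinear_zero_of_span' {κ : Type*} [Fintype κ] {M N : Type*} [AddCommGroup M]
    [Module ℂ M] [AddCommGroup N] [Module ℂ N] (Φ : MultilinearMap ℂ (fun _ : κ => M) N)
    (S : κ → Set M) (h : ∀ w : κ → M, (∀ i, w i ∈ S i) → Φ w = 0) (w : κ → M)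
    (hw : ∀ i, w i ∈ Submodule.span ℂ (S i)) : Φ w = 0 := by
  classical
  have h1 : ∀ i, ∃ l : (S i) →₀ ℂ,
      Finsupp.linearCombination ℂ (Subtype.val : S i → M) l = w i := by
    intro i
    rw [← Finsupp.mem_span_iff_linearCombination]
    exact hw i
  choose l hl using h1
  have h2 : w = fun i => ∑ r ∈ (l i).support, (l i r) • (r : M) := by
    funext i
    rw [← hl i, Finsupp.linearCombination_apply, Finsupp.sum]
  rw [h2, MultilinearMap.map_sum_finset]
  apply Finset.sum_eq_zero
  intro r _
  rw [MultilinearMap.map_smul_univ, h _ (fun i => (r i).2), smul_zero]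

lemma prod_two {b : ℕ} {A : Type*} [CommMonoid A] (q : Fin b → A) {s s' : Fin b} (h : s ≠ s') :
    ∏ j, q j = q s * (q s' * ∏ j ∈ (Finset.univ.erase s).erase s', q j) := by
  rw [Finset.mul_prod_erase (Finset.univ.erase s) q (by simp [h.symm]),
    Finset.mul_prod_erase Finset.univ q (Finset.mem_univ s)]

/-- The number of occurrences of `t`. -/
def cnt {a b N : ℕ} (c : Fin a → Fin b → Fin N) (t : Fin N) : ℕ :=
  (Finset.univ.filter (fun x : Fin a × Fin b => c x.1 x.2 = t)).card

lemma two_le_cnt {a b N : ℕ} {c : Fin a → Fin b → Fin N} {t : Fin N} {x y : Fin a × Fin b}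
    (hxy : x ≠ y) (hx : c x.1 x.2 = t) (hy : c y.1 y.2 = t) : 2 ≤ cnt c t := by
  rw [cnt]
  have h1 : ({x, y} : Finset (Fin a × Fin b)).card = 2 := Finset.card_pair hxy
  rw [← h1]
  apply Finset.card_le_card
  intro z hz
  rw [Finset.mem_insert, Finset.mem_singleton] at hz
  rcases hz with rfl | rfl
  · simp [hx]
  · simp [hy]

/-- Weights. -/
lemma formOf_wt {a b N : ℕ} (lam : Fin N → ℕ) (l : (Fin a → Fin b → (Fin N → ℂ)) →₀ ℂ)
    (hx : elOf l ∈ hwSpace lam (plethAct a b N)) (c : Fin a → Fin b → Fin N) (t : Fin N)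
    (ht : cnt c t ≠ lam t) : formOf l (fun i => ∏ j, X (c i j)) = 0 := by
  classical
  let d : Fin N → ℂ := fun i => if i = t then 2 else 1
  have hd : ∀ i, d i ≠ 0 := by
    intro i
    simp only [d]
    split_ifs
    · exact two_ne_zero
    · exact one_ne_zero
  have hg : IsBorel (Matrix.diagonal d) := by
    constructor
    · intro i j hij
      exact Matrix.diagonal_apply_ne d (ne_of_gt hij)
    · intro i
      rw [Matrix.diagonal_apply_eq]
      exact hd i
  have h1 := formOf_act lam l hx (Matrix.diagonal d) c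
    (fun i j => d (c i j) • (X (c i j) : MvPolynomial (Fin N) ℂ)) hg (by
      intro i j
      rw [map_smul, evL_X]
      funext v
      rw [Matrix.toLin'_apply, Matrix.mulVec_diagonal]
      rfl)
  have h2 : (fun i => ∏ j, d (c i j) • (X (c i j) : MvPolynomial (Fin N) ℂ)) =
      fun i => (∏ j, d (c i j)) • ∏ j, (X (c i j) : MvPolynomial (Fin N) ℂ) := by
    funext i
    rw [Finset.prod_smul]
  rw [h2, MultilinearMap.map_smul_univ, smul_eq_mul] at h1
  have h3 : ∏ i, ∏ j, d (c i j) = 2 ^ cnt c t := by
    rw [← Fintype.prod_prod_type' (fun i j => d (c i j))]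
    simp only [d, cnt]
    rw [Finset.prod_ite, Finset.prod_const, Finset.prod_const_one, mul_one]
  have h4 : ∏ i, (Matrix.diagonal d) i i ^ lam i = 2 ^ lam t := by
    rw [Finset.prod_eq_single t]
    · rw [Matrix.diagonal_apply_eq]
      simp [d]
    · intro i _ hi
      rw [Matrix.diagonal_apply_eq]
      simp [d, hi]
    · intro h
      exact absurd (Finset.mem_univ t) h
  rw [h3, h4, ← sub_eq_zero, ← sub_mul] at h1
  refine (mul_eq_zero.1 h1).resolve_left ?_
  intro h5
  rw [sub_eq_zero] at h5
  apply ht
  have h6 : (2 : ℕ) ^ cnt c t = 2 ^ lam t := by exact_mod_cast h5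
  exact Nat.pow_right_injective (le_refl 2) h6

/-- The form of a highest weight vector vanishes when two letters with weight at most one are in
the same argument. -/
lemma formOf_pair {a b N : ℕ} (lam : Fin N → ℕ) (l : (Fin a → Fin b → (Fin N → ℂ)) →₀ ℂ)
    (hx : elOf l ∈ hwSpace lam (plethAct a b N)) (c : Fin a → Fin b → Fin N) (i₀ : Fin a)
    {s s' : Fin b} (hs : s ≠ s') (hlt : c i₀ s < c i₀ s') (h1 : lam (c i₀ s) ≤ 1)
    (h2 : lam (c i₀ s') ≤ 1) : formOf l (fun i => ∏ j, X (c i j)) = 0 := by
  classical
  set u := c i₀ s with hu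
  set w := c i₀ s' with hw
  have huw : u ≠ w := ne_of_lt hlt
  by_cases hc : cnt c u = lam u
  swap
  · exact formOf_wt lam l hx c u hc
  -- the letter `u` occurs only once
  have huniq : ∀ i j, c i j = u → i = i₀ ∧ j = s := by
    intro i j hij
    by_contra hne
    have h3 : ((i, j) : Fin a × Fin b) ≠ (i₀, s) := by
      intro h
      rw [Prod.mk.injEq] at h
      exact hne h
    have := two_le_cnt (c := c) (t := u) h3 hij hu.symm
    omega
  let f' : Fin b → Fin N := Function.update (c i₀) s' u
  let f'' : Fin b → Fin N := Function.update (c i₀) s w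
  let c' : Fin a → Fin b → Fin N := Function.update c i₀ f'
  let c'' : Fin a → Fin b → Fin N := Function.update c i₀ f''
  have hc' : formOf l (fun i => ∏ j, X (c' i j)) = 0 := by
    apply formOf_wt lam l hx c' u
    have h3 : ((i₀, s) : Fin a × Fin b) ≠ (i₀, s') := by
      intro h
      rw [Prod.mk.injEq] at h
      exact hs h.2
    have := two_le_cnt (c := c') (t := u) h3 (by simp [c', f', Function.update_of_ne hs, hu])
      (by simp [c', f'])
    omega
  have hc'' : formOf l (fun i => ∏ j, X (c'' i j)) = 0 := by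
    apply formOf_wt lam l hx c'' w
    have h3 : ((i₀, s) : Fin a × Fin b) ≠ (i₀, s') := by
      intro h
      rw [Prod.mk.injEq] at h
      exact hs h.2
    have := two_le_cnt (c := c'') (t := w) h3 (by simp [c'', f''])
      (by simp [c'', f'', Function.update_of_ne hs.symm, hw])
    omega
  let g : Matrix (Fin N) (Fin N) ℂ := Matrix.transvection u w 1
  have hg : IsBorel g := by
    constructor
    · intro i j hij
      simp only [g, Matrix.transvection, Matrix.add_apply, Matrix.one_apply, Matrix.single_apply]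
      rw [if_neg (ne_of_gt hij), if_neg, add_zero]
      rintro ⟨rfl, rfl⟩
      exact absurd hlt (not_lt.2 hij.le)
    · intro i
      simp only [g, Matrix.transvection, Matrix.add_apply, Matrix.one_apply_eq,
        Matrix.single_apply]
      rw [if_neg, add_zero]
      · exact one_ne_zero
      · rintro ⟨rfl, h⟩
        exact huw h.symm
  have hgd : ∏ i, g i i ^ lam i = 1 := by
    apply Finset.prod_eq_one
    intro i _
    have h3 : g i i = 1 := by
      simp only [g, Matrix.transvection, Matrix.add_apply, Matrix.one_apply_eq,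
        Matrix.single_apply]
      rw [if_neg, add_zero]
      rintro ⟨rfl, h⟩
      exact huw h.symm
    rw [h3, one_pow]
  let p : Fin a → Fin b → MvPolynomial (Fin N) ℂ := fun i j =>
    if c' i j = u then X u + X w else X (c' i j)
  have h3 := formOf_act lam l hx g c' p hg (by
    intro i j
    simp only [p]
    split_ifs with h
    · rw [map_add, evL_X, evL_X, h]
      funext v
      rw [Matrix.toLin'_apply]
      simp only [g, Matrix.transvection, Matrix.add_mulVec, Matrix.one_mulVec, Pi.add_apply,
        Matrix.single_mulVec]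
      simp
    · rw [evL_X]
      funext v
      rw [Matrix.toLin'_apply]
      simp only [g, Matrix.transvection, Matrix.add_mulVec, Matrix.one_mulVec, Pi.add_apply,
        Matrix.single_mulVec]
      simp [h])
  rw [hgd, one_mul, hc'] at h3
  set R : MvPolynomial (Fin N) ℂ := ∏ j ∈ (Finset.univ.erase s).erase s', X (c i₀ j) with hR
  have hPf' : ∏ j, (X (f' j) : MvPolynomial (Fin N) ℂ) = X u * (X u * R) := by
    rw [prod_two _ hs]
    congr 1
    · simp [f', Function.update_of_ne hs, hu]
    · congr 1
      · simp [f']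
      · apply Finset.prod_congr rfl
        intro j hj
        simp only [f']
        rw [Function.update_of_ne (Finset.ne_of_mem_erase hj)]
  have hPf'' : ∏ j, (X (f'' j) : MvPolynomial (Fin N) ℂ) = X w * (X w * R) := by
    rw [prod_two _ hs]
    congr 1
    · simp [f'']
    · congr 1
      · simp [f'', Function.update_of_ne hs.symm, hw]
      · apply Finset.prod_congr rfl
        intro j hj
        simp only [f'']
        rw [Function.update_of_ne (Finset.ne_of_mem_erase (Finset.mem_of_mem_erase hj))]
  have hPf : ∏ j, (X (c i₀ j) : MvPolynomial (Fin N) ℂ) = X u * (X w * R) := by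
    rw [prod_two _ hs]
  set P : Fin a → MvPolynomial (Fin N) ℂ := fun i => ∏ j, X (c i j) with hP
  have hp : (fun i => ∏ j, p i j) = Function.update P i₀
      (X u * (X u * R) + (X u * (X w * R) + X u * (X w * R)) + X w * (X w * R)) := by
    funext i
    by_cases hi : i = i₀
    · subst hi
      rw [Function.update_self, prod_two _ hs]
      have h4 : p i s = X u + X w := by
        simp only [p]
        rw [if_pos]
        simp [c', f', Function.update_of_ne hs, hu]
      have h5 : p i s' = X u + X w := by
        simp only [p]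
        rw [if_pos]
        simp [c', f']
      have h6 : ∏ j ∈ (Finset.univ.erase s).erase s', p i j = R := by
        apply Finset.prod_congr rfl
        intro j hj
        have h7 : j ≠ s' := Finset.ne_of_mem_erase hj
        have h8 : j ≠ s := Finset.ne_of_mem_erase (Finset.mem_of_mem_erase hj)
        have h9 : c' i j = c i j := by
          simp only [c', f']
          rw [Function.update_self, Function.update_of_ne h7]
        simp only [p]
        rw [h9, if_neg]
        intro h10
        exact h8 (huniq i j h10).2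
      rw [h4, h5, h6]
      ring
    · rw [Function.update_of_ne hi]
      apply Finset.prod_congr rfl
      intro j _
      have h9 : c' i j = c i j := by
        simp only [c']
        rw [Function.update_of_ne hi]
      simp only [p]
      rw [h9, if_neg]
      intro h10
      exact hi (huniq i j h10).1
  rw [hp, MultilinearMap.map_update_add, MultilinearMap.map_update_add,
    MultilinearMap.map_update_add] at h3
  have e1 : formOf l (Function.update P i₀ (X u * (X u * R))) = 0 := by
    rw [← hc', ← hPf']
    congr 1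
    funext i
    by_cases hi : i = i₀
    · subst hi
      simp only [Function.update_self, c']
    · simp only [Function.update_of_ne hi, c', P]
  have e2 : formOf l (Function.update P i₀ (X w * (X w * R))) = 0 := by
    rw [← hc'', ← hPf'']
    congr 1
    funext i
    by_cases hi : i = i₀
    · subst hi
      simp only [Function.update_self, c'']
    · simp only [Function.update_of_ne hi, c'', P]
  have e3 : Function.update P i₀ (X u * (X w * R)) = P := by
    rw [← hPf]
    exact Function.update_eq_self i₀ P
  rw [e1, e2, e3, zero_add, add_zero, ← two_mul] at h3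
  exact (mul_eq_zero.1 h3).resolve_left two_ne_zero

variable {n : ℕ}

lemma thin_formOf {a b : ℕ} (lam : Fin (n + 2) → ℕ) (hlam : ∀ i : Fin n, lam i.succ.succ ≤ 1)
    (l : (Fin a → Fin b → (Fin (n + 2) → ℂ)) →₀ ℂ)
    (hx : elOf l ∈ hwSpace lam (plethAct a b (n + 2))) :
    Thin (Submodule.span ℂ {(X 0 : MvPolynomial (Fin (n + 2)) ℂ), X 1} ⊔ ZZ n) (ZZ n) b
      (formOf l) := by
  classical
  intro hb P hP i₀ z₁ hz₁ z₂ hz₂ Y hY hPi
  rw [sup_eq] at hP hY
  obtain ⟨b', rfl⟩ : ∃ b', b = b' + 2 := ⟨b - 2, by omega⟩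
  rw [Nat.add_sub_cancel] at hY
  let D : Set (MvPolynomial (Fin (n + 2)) ℂ) := Set.range (fun i : Fin n => X i.succ.succ)
  let E : Set (MvPolynomial (Fin (n + 2)) ℂ) :=
    Set.range (fun c : Fin b' → Fin (n + 2) => ∏ j, X (c j))
  let B : Set (MvPolynomial (Fin (n + 2)) ℂ) :=
    Set.range (fun c : Fin (b' + 2) → Fin (n + 2) => ∏ j, X (c j))
  have hY' : Y ∈ Submodule.span ℂ E := span_pow_eq _ _ hY
  have hPi' : P i₀ ∈ Submodule.span ℂ (D * D * E) := by
    rw [hPi, ← Submodule.span_mul_span, ← Submodule.span_mul_span]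
    exact Submodule.mul_mem_mul (Submodule.mul_mem_mul hz₁ hz₂) hY'
  apply multilinear_zero_of_span' (formOf l) (fun i => if i = i₀ then D * D * E else B)
  · intro w hw
    have h1 : ∀ i, ∃ c : Fin (b' + 2) → Fin (n + 2), w i = ∏ j, X (c j) ∧
        (i = i₀ → ∃ u v : Fin n, c 0 = u.succ.succ ∧ c 1 = v.succ.succ) := by
      intro i
      have h2 := hw i
      by_cases hi : i = i₀
      · rw [if_pos hi] at h2
        obtain ⟨y, hy, e, he, hye⟩ := Set.mem_mul.1 h2
        obtain ⟨d₁, hd₁, d₂, hd₂, hdd⟩ := Set.mem_mul.1 hy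
        obtain ⟨u, hu⟩ := hd₁
        obtain ⟨v, hv⟩ := hd₂
        obtain ⟨c, hc⟩ := he
        refine ⟨Fin.cons u.succ.succ (Fin.cons v.succ.succ c), ?_, fun _ => ⟨u, v, ?_, ?_⟩⟩
        · rw [← hye, ← hdd, ← hu, ← hv, ← hc, Fin.prod_univ_succ, Fin.prod_univ_succ]
          simp only [Fin.cons_zero, Fin.cons_succ]
          rw [mul_assoc]
        · rw [Fin.cons_zero]
        · rfl
      · rw [if_neg hi] at h2
        obtain ⟨c, hc⟩ := h2
        exact ⟨c, hc.symm, fun h => absurd h hi⟩
    choose c hc hc' using h1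
    obtain ⟨u, v, hu, hv⟩ := hc' i₀ rfl
    have hw' : w = fun i => ∏ j, X (c i j) := by
      funext i; exact hc i
    rw [hw']
    have h01 : (0 : Fin (b' + 2)) ≠ 1 := by
      intro h; exact absurd (congrArg Fin.val h) (by simp)
    rcases lt_trichotomy (c i₀ 0) (c i₀ 1) with h | h | h
    · exact formOf_pair lam l hx c i₀ h01 h (by rw [hu]; exact hlam u) (by rw [hv]; exact hlam v)
    · apply formOf_wt lam l hx c (c i₀ 0)
      have h3 : ((i₀, 0) : Fin a × Fin (b' + 2)) ≠ (i₀, 1) := by
        intro h
        rw [Prod.mk.injEq] at h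
        exact h01 h.2
      have h4 := two_le_cnt (c := c) (t := c i₀ 0) h3 rfl h.symm
      have h5 := hlam u
      rw [← hu] at h5
      omega
    · exact formOf_pair lam l hx c i₀ h01.symm h (by rw [hv]; exact hlam v)
        (by rw [hu]; exact hlam u)
  · intro i
    by_cases hi : i = i₀
    · rw [if_pos hi, hi]
      exact hPi'
    · rw [if_neg hi]
      exact span_pow_eq _ _ (hP i)

/-- **The canonical map is injective on highest weight vectors with at most one box in each row
below the second one.** -/
theorem foulkesHowe_injOn {a b : ℕ} (lam : Fin (n + 2) → ℕ)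
    (hlam : ∀ i : Fin n, lam i.succ.succ ≤ 1) (x : Sym[ℂ]^a (Sym[ℂ]^b (Fin (n + 2) → ℂ)))
    (hx : x ∈ hwSpace lam (plethAct a b (n + 2)))
    (h0 : foulkesHowe a b (Fin (n + 2) → ℂ) x = 0) : x = 0 := by
  obtain ⟨l, rfl⟩ := exists_elOf x
  apply elOf_eq_zero
  have hK := isK_formOf l h0
  rw [← sup_eq] at hK ⊢
  exact thin_main (setup n) a (formOf l) ⟨formOf_symm l, hK, thin_formOf lam hlam l hx⟩

theorem plethMult_eq {a b : ℕ} (lam : Fin (n + 2) → ℕ)
    (hlam : ∀ i : Fin n, lam i.succ.succ ≤ 1) :
    plethMult a b (n + 2) lam = plethMult b a (n + 2) lam := by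
  apply le_antisymm
  · exact finrank_le_of_inj (foulkesHowe a b (Fin (n + 2) → ℂ)) _ _
      (fun x hx => foulkesHowe_hwSpace lam x hx)
      (fun x hx h0 => foulkesHowe_injOn lam hlam x hx h0)
  · exact finrank_le_of_inj (foulkesHowe b a (Fin (n + 2) → ℂ)) _ _
      (fun x hx => foulkesHowe_hwSpace lam x hx)
      (fun x hx h0 => foulkesHowe_injOn lam hlam x hx h0)

lemma surj_of_inj {M N : Type} [AddCommMonoid M] [Module ℂ M] [AddCommMonoid N] [Module ℂ N]
    [Module.Finite ℂ M] [Module.Finite ℂ N] (f : M →ₗ[ℂ] N) (S : Submodule ℂ M)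
    (T : Submodule ℂ N) (hST : ∀ x ∈ S, f x ∈ T) (hinj : ∀ x ∈ S, f x = 0 → x = 0)
    (hd : Module.finrank ℂ S = Module.finrank ℂ T) : ∀ y ∈ T, ∃ x ∈ S, f x = y := by
  letI := Module.addCommMonoidToAddCommGroup ℂ (M := M)
  letI := Module.addCommMonoidToAddCommGroup ℂ (M := N)
  let g : S →ₗ[ℂ] T := (f.domRestrict S).codRestrict T (fun x => hST x x.2)
  have hg : Function.Injective g := by
    rw [injective_iff_map_eq_zero]
    intro x hx
    have h1 : f x = 0 := congrArg Subtype.val hx
    exact Subtype.ext (hinj x x.2 h1)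
  have hs : Function.Surjective g :=
    (LinearMap.injective_iff_surjective_of_finrank_eq_finrank hd).1 hg
  intro y hy
  obtain ⟨x, hx⟩ := hs ⟨y, hy⟩
  exact ⟨x, x.2, congrArg Subtype.val hx⟩

/-- The canonical map is onto the highest weight vectors with at most one box in each row below
the second one. -/
theorem foulkesHowe_surjOn {a b : ℕ} (lam : Fin (n + 2) → ℕ)
    (hlam : ∀ i : Fin n, lam i.succ.succ ≤ 1) (y : Sym[ℂ]^b (Sym[ℂ]^a (Fin (n + 2) → ℂ)))
    (hy : y ∈ hwSpace lam (plethAct b a (n + 2))) :
    ∃ x ∈ hwSpace lam (plethAct a b (n + 2)), foulkesHowe a b (Fin (n + 2) → ℂ) x = y :=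
  surj_of_inj (foulkesHowe a b (Fin (n + 2) → ℂ)) _ _
    (fun x hx => foulkesHowe_hwSpace lam x hx)
    (fun x hx h0 => foulkesHowe_injOn lam hlam x hx h0) (plethMult_eq lam hlam) y hy

end Vale.Agent.P181.H534
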