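import Vale.Agent.P181.H534.Net5

/-!
The cube argument over a three-dimensional space of lines.
-/

set_option autoImplicit false

namespace Vale.Agent.P181.H534

open Vale.Agent.P181 Vale.Agent.P181.H536

variable {A : Type*} [CommRing A] [Algebra ℂ A]

/-- The data: `U` is spanned by `e`, `τ` scales `Z`, and there are enough shears. -/
structure Setup3 (e : Fin 3 → A) (Z : Submodule ℂ A) (τ : ℂ → A →ₐ[ℂ] A) : Prop where
  τe : ∀ t c, τ t (e c) = e c
  τz : ∀ t, ∀ z ∈ Z, τ t z = t • z
  shear : ∀ ζ : Fin 3 → A, (∀ c, ζ c ∈ Z) → ∃ g : A →ₐ[ℂ] A,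
    IsShear (Submodule.span ℂ (Set.range e)) Z g ∧ ∀ c, g (e c) = e c + ζ c

/-- The class of forms of the main induction. -/
structure Cls3 (e : Fin 3 → A) (Z : Submodule ℂ A) (τ : ℂ → A →ₐ[ℂ] A) (b r : ℕ) {m : ℕ}
    (G : MultilinearMap ℂ (fun _ : Fin m => A) ℂ) : Prop where
  symm : IsSymm G
  isK : IsK (Submodule.span ℂ (Set.range e) ⊔ Z) b G
  good : Good (Submodule.span ℂ (Set.range e)) Z τ b r G

variable {e : Fin 3 → A} {Z : Submodule ℂ A} {τ : ℂ → A →ₐ[ℂ] A} {b r k j M : ℕ}
  {G : MultilinearMap ℂ (fun _ : Fin (k + 1) => A) ℂ}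

lemma tau_U (h : Setup3 e Z τ) (t : ℂ) {u : A} (hu : u ∈ Submodule.span ℂ (Set.range e)) :
    τ t u = u := by
  induction hu using Submodule.span_induction with
  | mem x hx =>
    obtain ⟨c, rfl⟩ := hx
    exact h.τe t c
  | zero => exact map_zero _
  | add x y _ _ hx hy => rw [map_add, hx, hy]
  | smul c x _ hx => rw [map_smul, hx]

lemma tau_multiset3 (h : Setup3 e Z τ) (t : ℂ) (v : Multiset A) (hv : ∀ x ∈ v, x ∈ Z) :
    τ t v.prod = t ^ (Multiset.card v) • v.prod := by
  induction v using Multiset.induction with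
  | empty => simp
  | cons a m ih =>
    rw [Multiset.prod_cons, Multiset.card_cons, map_mul,
      h.τz t a (hv a (Multiset.mem_cons_self _ _)),
      ih (fun x hx => hv x (Multiset.mem_cons_of_mem hx)), pow_succ', mul_smul, smul_mul_assoc,
      mul_smul_comm]

/-- The cube argument. -/
lemma stepD3 (h : Setup3 e Z τ) (hM : k * k + 4 * k ≤ 2 * M + 2) (hM2 : 2 ≤ M) (hr : r + M ≤ b)
    (hG : Cls3 e Z τ b r G) (hD : DD (Submodule.span ℂ (Set.range e) ⊔ Z) b G (j + 1))
    (i₀ : ℕ) (hi₀ : i₀ ≤ 2) (vZ : Multiset A) (hv : i₀ + Multiset.card vZ = j + 2)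
    (hvZ : ∀ x ∈ vZ, x ∈ Z) {m : ℕ} (hm : j + 2 + m = b) (u : Fin 3 → A)
    (hu : ∀ i, u i ∈ Submodule.span ℂ (Set.range e))
    (hsp : Submodule.span ℂ (Set.range e) ≤ Submodule.span ℂ {u 0, u 1, u 2})
    (s : Fin j → A) (hs : ∀ i, s i ∈ Submodule.span ℂ (Set.range e))
    (zs : Fin j → A) (hzs : ∀ i, zs i ∈ Z)
    (f : Fin m → A) (hf : ∀ i, f i ∈ Submodule.span ℂ (Set.range e))
    (ze : Fin m → A) (hze : ∀ i, ze i ∈ Z) :
    G.curryLeft (u 2 ^ i₀ * vZ.prod * ∏ i, (f i + ze i)) (fun _ => u 0 * u 1 *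
      ((∏ i, (s i + zs i)) * ∏ i, (f i + ze i))) = 0 := by
  classical
  set U := Submodule.span ℂ (Set.range e) with hU
  set L := U ⊔ Z with hL
  obtain ⟨Q, hQ, -⟩ := mv_exists (σ := Fin j ⊕ Fin m) G
    (Fin.cons (MvPolynomial.C (u 2 ^ i₀ * vZ.prod) * ∏ i, (MvPolynomial.C (f i) +
        MvPolynomial.X (Sum.inr i) * MvPolynomial.C (ze i)))
      (fun _ => MvPolynomial.C (u 0 * u 1) *
        ((∏ i, (MvPolynomial.C (s i) +
          MvPolynomial.X (Sum.inl i) * MvPolynomial.C (zs i))) *
        ∏ i, (MvPolynomial.C (f i) +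
          MvPolynomial.X (Sum.inr i) * MvPolynomial.C (ze i)))))
  have hQ' : ∀ ζ : Fin j ⊕ Fin m → ℂ, MvPolynomial.eval ζ Q =
      G.curryLeft (u 2 ^ i₀ * vZ.prod * ∏ i, (f i + ζ (Sum.inr i) • ze i))
        (fun _ => u 0 * u 1 * ((∏ i, (s i + ζ (Sum.inl i) • zs i)) *
          ∏ i, (f i + ζ (Sum.inr i) • ze i))) := by
    intro ζ
    rw [hQ, MultilinearMap.curryLeft_apply]
    congr 1
    funext i
    refine Fin.cases ?_ (fun i => ?_) i
    · simp only [Fin.cons_zero, map_mul, map_prod, map_add, evA_C, evA_X, Algebra.smul_def]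
    · simp only [Fin.cons_succ, map_mul, map_prod, map_add, evA_C, evA_X, Algebra.smul_def]
  -- membership
  have hUL : ∀ {x : A}, x ∈ U → x ∈ L := fun hx => Submodule.mem_sup_left hx
  have hZL : ∀ {x : A}, x ∈ Z → x ∈ L := fun hx => Submodule.mem_sup_right hx
  have hvL : ∀ x ∈ vZ, x ∈ L := fun x hx => hZL (hvZ x hx)
  have hmemE : ∀ (ζ : ℂ) (i : Fin m), f i + ζ • ze i ∈ L := fun ζ i =>
    L.add_mem (hUL (hf i)) (L.smul_mem _ (hZL (hze i)))
  have hmemS : ∀ (ζ : ℂ) (i : Fin j), s i + ζ • zs i ∈ L := fun ζ i =>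
    L.add_mem (hUL (hs i)) (L.smul_mem _ (hZL (hzs i)))
  -- the degree
  have hdeg : ∀ ζ : Fin j ⊕ Fin m → ℂ, ∃ P : Polynomial ℂ,
      (P ≠ 0 → P.natDegree + Multiset.card vZ ≤ r) ∧
      ∀ t, P.eval t = MvPolynomial.eval (fun k => t * ζ k) Q := by
    intro ζ
    let P : Polynomial ℂ := MvPolynomial.aeval (fun k => Polynomial.C (ζ k) * Polynomial.X) Q
    have hP : ∀ t, P.eval t = MvPolynomial.eval (fun k => t * ζ k) Q := by
      intro t
      have h2 : (Polynomial.aeval t : Polynomial ℂ →ₐ[ℂ] ℂ).comp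
          (MvPolynomial.aeval (fun k => Polynomial.C (ζ k) * Polynomial.X) :
            MvPolynomial (Fin j ⊕ Fin m) ℂ →ₐ[ℂ] Polynomial ℂ) =
          MvPolynomial.aeval (fun k => t * ζ k) := by
        apply MvPolynomial.algHom_ext
        intro i
        rw [AlgHom.comp_apply, MvPolynomial.aeval_X, MvPolynomial.aeval_X,
          Polynomial.coe_aeval_eq_eval, Polynomial.eval_mul, Polynomial.eval_C,
          Polynomial.eval_X, mul_comm]
      have h3 := congrArg (fun f => f Q) h2
      simp only [AlgHom.comp_apply, Polynomial.coe_aeval_eq_eval] at h3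
      rw [h3, ← RingHom.coe_coe, MvPolynomial.coe_aeval_eq_eval]
    refine ⟨P, ?_, hP⟩
    intro hP0
    let W : Fin (k + 1) → A := Fin.cons
      (u 2 ^ i₀ * vZ.prod * ∏ i, (f i + ζ (Sum.inr i) • ze i))
      (fun _ => u 0 * u 1 * ((∏ i, (s i + ζ (Sum.inl i) • zs i)) *
          ∏ i, (f i + ζ (Sum.inr i) • ze i)))
    have hW : ∀ i, W i ∈ L ^ b := by
      have hE : ∏ i, (f i + ζ (Sum.inr i) • ze i) ∈ L ^ m :=
        prod_mem_pow L _ (fun i => hmemE _ i)
      have hS : ∏ i, (s i + ζ (Sum.inl i) • zs i) ∈ L ^ j :=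
        prod_mem_pow L _ (fun i => hmemS _ i)
      intro i
      refine Fin.cases ?_ (fun i => ?_) i
      · simp only [W, Fin.cons_zero]
        rw [← hm, pow_add, ← hv, pow_add]
        exact Submodule.mul_mem_mul (Submodule.mul_mem_mul
          (Submodule.pow_mem_pow _ (hUL (hu 2)) _) (multiset_prod_mem_pow L vZ hvL)) hE
      · simp only [W, Fin.cons_succ]
        have h1 : b = 2 + (j + m) := by omega
        rw [h1, pow_add, pow_add]
        refine Submodule.mul_mem_mul ?_ (Submodule.mul_mem_mul hS hE)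
        rw [pow_two]
        exact Submodule.mul_mem_mul (hUL (hu 0)) (hUL (hu 1))
    obtain ⟨P', hP'd, hP'⟩ := hG.good (AlgHom.id ℂ A) (isShear_id _ _) W hW
    have h1 : Polynomial.X ^ (Multiset.card vZ) * P = P' := by
      apply Polynomial.eq_of_infinite_eval_eq
      apply Set.Infinite.mono (s := ({0} : Set ℂ)ᶜ)
      · intro t ht
        rw [Set.mem_ofPred_eq, hP' t ht, Polynomial.eval_mul, Polynomial.eval_pow,
          Polynomial.eval_X, hP, hQ', comp_apply]
        have h2 : (fun i => (AlgHom.id ℂ A) (τ t (W i))) = Fin.cons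
            (t ^ (Multiset.card vZ) •
              (u 2 ^ i₀ * vZ.prod * ∏ i, (f i + (t * ζ (Sum.inr i)) • ze i)))
            (fun _ => u 0 * u 1 *
              ((∏ i, (s i + (t * ζ (Sum.inl i)) • zs i)) *
                ∏ i, (f i + (t * ζ (Sum.inr i)) • ze i))) := by
          have hE : τ t (∏ i, (f i + ζ (Sum.inr i) • ze i)) =
              ∏ i, (f i + (t * ζ (Sum.inr i)) • ze i) := by
            rw [map_prod]
            apply Finset.prod_congr rfl
            intro i _
            rw [map_add, map_smul, tau_U h t (hf i), h.τz t _ (hze i), smul_smul, mul_comm t]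
          have hS : τ t (∏ i, (s i + ζ (Sum.inl i) • zs i)) =
              ∏ i, (s i + (t * ζ (Sum.inl i)) • zs i) := by
            rw [map_prod]
            apply Finset.prod_congr rfl
            intro i _
            rw [map_add, map_smul, tau_U h t (hs i), h.τz t _ (hzs i), smul_smul, mul_comm t]
          funext i
          refine Fin.cases ?_ (fun i => ?_) i
          · simp only [W, Fin.cons_zero, AlgHom.coe_id, id_eq]
            rw [map_mul, map_mul, map_pow, hE, tau_multiset3 h t vZ hvZ, tau_U h t (hu 2),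
              mul_smul_comm, smul_mul_assoc]
          · simp only [W, Fin.cons_succ, AlgHom.coe_id, id_eq]
            rw [map_mul, map_mul, map_mul, hE, hS, tau_U h t (hu 0), tau_U h t (hu 1)]
        rw [h2, ← MultilinearMap.curryLeft_apply, map_smul, smul_apply, smul_eq_mul]
      · exact (Set.finite_singleton (0 : ℂ)).infinite_compl
    rw [← h1, Polynomial.natDegree_mul (pow_ne_zero _ Polynomial.X_ne_zero) hP0,
      Polynomial.natDegree_X_pow] at hP'd
    omega
  have hQ0 : Q = 0 := by
    by_cases hjr : Multiset.card vZ ≤ r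
    · apply lemmaZ Q (Finset.univ.map Function.Embedding.inr) (M - i₀) (r - Multiset.card vZ)
      · rw [Finset.card_map, Finset.card_univ, Fintype.card_fin]
        omega
      · intro ζ hζ
        -- choose `M - i₀` of the lines in the net
        have h1 : M - i₀ ≤ (Finset.univ.filter (fun i : Fin m => ζ (Sum.inr i) = 0)).card := by
          refine hζ.trans ?_
          rw [Finset.filter_map, Finset.card_map]
          exact le_refl _
        obtain ⟨I, hI, hIN⟩ := Finset.exists_subset_card_eq h1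
        have hI0 : ∀ i ∈ I, ζ (Sum.inr i) = 0 := fun i hi => (Finset.mem_filter.1 (hI hi)).2
        rw [hQ']
        have hprod : ∏ i, (f i + ζ (Sum.inr i) • ze i) =
            (Multiset.map f I.val).prod *
              (Multiset.map (fun i => f i + ζ (Sum.inr i) • ze i) Iᶜ.val).prod := by
          rw [← Finset.prod_mul_prod_compl I]
          congr 1
          apply Finset.prod_congr rfl
          intro i hi
          rw [hI0 i hi, zero_smul, add_zero]
        rw [hprod]
        have h3 := netV_all (L := L) (M := M - i₀) hi₀ (by omega) hD (u 0) (u 1) (u 2) 0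
          (Multiset.map f I.val) vZ
          (Multiset.map (fun i => s i + ζ (Sum.inl i) • zs i) Finset.univ.val)
          (Multiset.map (fun i => f i + ζ (Sum.inr i) • ze i) Iᶜ.val)
          (hUL (hu 0)) (hUL (hu 1)) (hUL (hu 2)) (by simp) (by
            intro z hz
            obtain ⟨i, -, rfl⟩ := Multiset.mem_map.1 hz
            exact hsp (hf i)) rfl (by rw [Multiset.card_map]; exact hIN)
          (by rw [add_comm]; exact hv) (by rw [Multiset.card_map]; simp) (by
            rw [Multiset.card_map, Finset.card_val, Finset.card_compl, Fintype.card_fin, hIN]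
            have h2 := Finset.card_le_univ I
            rw [hIN, Fintype.card_fin] at h2
            omega) hvL (by
            intro z hz
            obtain ⟨i, -, rfl⟩ := Multiset.mem_map.1 hz
            exact hmemS _ i) (by
            intro z hz
            obtain ⟨i, -, rfl⟩ := Multiset.mem_map.1 hz
            exact hmemE _ i)
        rw [Multiset.prod_zero, one_mul] at h3
        exact h3
      · intro ζ
        obtain ⟨P, hPd, hP⟩ := hdeg ζ
        by_cases hP0 : P = 0
        · exact ⟨P, by rw [hP0]; simp, fun t _ => hP t⟩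
        · exact ⟨P, by have := hPd hP0; omega, fun t _ => hP t⟩
    · apply MvPolynomial.funext
      intro ζ
      obtain ⟨P, hPd, hP⟩ := hdeg ζ
      have hP0 : P = 0 := by
        by_contra hne
        have := hPd hne
        omega
      have h1 := hP 1
      simp only [one_mul, hP0, Polynomial.eval_zero] at h1
      rw [map_zero]
      exact h1.symm
  have hfin := hQ' (fun _ => 1)
  rw [hQ0, map_zero] at hfin
  simp only [one_smul] at hfin
  exact hfin.symm

end Vale.Agent.P181.H534
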