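import Vale.Agent.P181.H534.Three
import Mathlib.LinearAlgebra.Matrix.Charpoly.Coeff

/-!
The induction step over a three-dimensional space of lines.
-/

set_option autoImplicit false

open Polynomial

namespace Vale.Agent.P181.H534

open Vale.Agent.P181 Vale.Agent.P181.H536

variable {A : Type*} [CommRing A] [Algebra ℂ A]

variable {e : Fin 3 → A} {Z : Submodule ℂ A} {τ : ℂ → A →ₐ[ℂ] A} {b r k j M : ℕ}
  {G : MultilinearMap ℂ (fun _ : Fin (k + 1) => A) ℂ}

/-- The cube argument, for multisets of lines. -/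
lemma stepD3' (h : Setup3 e Z τ) (hM : k * k + 4 * k ≤ 2 * M + 2) (hM2 : 2 ≤ M) (hr : r + M ≤ b)
    (hG : Cls3 e Z τ b r G) (hD : DD (Submodule.span ℂ (Set.range e) ⊔ Z) b G (j + 1))
    (i₀ : ℕ) (hi₀ : i₀ ≤ 2) (vZ : Multiset A) (hv : i₀ + Multiset.card vZ = j + 2)
    (hvZ : ∀ x ∈ vZ, x ∈ Z) (u : Fin 3 → A)
    (hu : ∀ i, u i ∈ Submodule.span ℂ (Set.range e))
    (hsp : Submodule.span ℂ (Set.range e) ≤ Submodule.span ℂ {u 0, u 1, u 2})
    (S R : Multiset A) (hS : Multiset.card S = j) (hR : j + 2 + Multiset.card R = b)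
    (hSL : ∀ x ∈ S, x ∈ Submodule.span ℂ (Set.range e) ⊔ Z)
    (hRL : ∀ x ∈ R, x ∈ Submodule.span ℂ (Set.range e) ⊔ Z) :
    G.curryLeft (u 2 ^ i₀ * vZ.prod * R.prod)
      (fun _ => u 0 * u 1 * (S.prod * R.prod)) = 0 := by
  obtain ⟨f, hf⟩ := exists_fin_map S j hS
  obtain ⟨m, hm⟩ : ∃ m, Multiset.card R = m := ⟨_, rfl⟩
  obtain ⟨g, hg⟩ := exists_fin_map R m hm
  have hfL : ∀ i, f i ∈ Submodule.span ℂ (Set.range e) ⊔ Z := by
    intro i
    apply hSL
    rw [hf]
    exact Multiset.mem_map_of_mem f (Finset.mem_univ_val i)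
  have hgL : ∀ i, g i ∈ Submodule.span ℂ (Set.range e) ⊔ Z := by
    intro i
    apply hRL
    rw [hg]
    exact Multiset.mem_map_of_mem g (Finset.mem_univ_val i)
  choose s hs zs hzs hfs using fun i => Submodule.mem_sup.1 (hfL i)
  choose f' hf' ze hze hge using fun i => Submodule.mem_sup.1 (hgL i)
  have h1 := stepD3 h hM hM2 hr hG hD i₀ hi₀ vZ hv hvZ (m := m) (by omega) u hu hsp s hs zs hzs
    f' hf' ze hze
  simp only [hfs, hge] at h1
  rw [hf, hg]
  exact h1

lemma stepE3_aux (h : Setup3 e Z τ) (hM : k * k + 4 * k ≤ 2 * M + 2) (hM2 : 2 ≤ M)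
    (hr : r + M ≤ b)
    (hG : Cls3 e Z τ b r G) (hD : DD (Submodule.span ℂ (Set.range e) ⊔ Z) b G (j + 1))
    (u : Fin 3 → A) (hu : ∀ i, u i ∈ Submodule.span ℂ (Set.range e))
    (hsp : Submodule.span ℂ (Set.range e) ≤ Submodule.span ℂ {u 0, u 1, u 2})
    (S R : Multiset A) (hS : Multiset.card S = j) (hR : j + 2 + Multiset.card R = b)
    (hSL : ∀ x ∈ S, x ∈ Submodule.span ℂ (Set.range e) ⊔ Z)
    (hRL : ∀ x ∈ R, x ∈ Submodule.span ℂ (Set.range e) ⊔ Z) (hS2 : 1 ≤ j → u 2 ∈ S)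
    (v : Multiset A) (hvL : ∀ x ∈ v, x ∈ Submodule.span ℂ (Set.range e) ⊔ Z) :
    ∀ (i₀ : ℕ) (wZ : Multiset A), (1 ≤ j → i₀ = 0) →
      Multiset.card v + (i₀ + Multiset.card wZ) = j + 2 → (∀ x ∈ wZ, x ∈ Z) →
      G.curryLeft (v.prod * (u 2 ^ i₀ * wZ.prod) * R.prod)
        (fun _ => u 0 * u 1 * (S.prod * R.prod)) = 0 := by
  induction v using Multiset.induction with
  | empty =>
    intro i₀ wZ hw hc hwZ
    rw [Multiset.card_zero, zero_add] at hc
    rw [Multiset.prod_zero, one_mul]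
    refine stepD3' h hM hM2 hr hG hD i₀ ?_ wZ hc hwZ u hu hsp S R hS hR hSL hRL
    rcases Nat.eq_zero_or_pos j with hj | hj
    · omega
    · rw [hw hj]; omega
  | cons a v ih =>
    intro i₀ wZ hw hc hwZ
    rw [Multiset.card_cons] at hc
    obtain ⟨u', hu', z, hz, rfl⟩ := Submodule.mem_sup.1 (hvL a (Multiset.mem_cons_self _ _))
    have hvL' : ∀ x ∈ v, x ∈ Submodule.span ℂ (Set.range e) ⊔ Z :=
      fun x hx => hvL x (Multiset.mem_cons_of_mem hx)
    let φ : A →ₗ[ℂ] ℂ :=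
      { toFun := fun x => G.curryLeft (x * (v.prod * (u 2 ^ i₀ * wZ.prod) * R.prod))
          (fun _ => u 0 * u 1 * (S.prod * R.prod))
        map_add' := fun a b => by rw [add_mul, map_add]; rfl
        map_smul' := fun c a => by rw [smul_mul_assoc, map_smul]; rfl }
    have hφ : ∀ x, φ x = G.curryLeft (x * (v.prod * (u 2 ^ i₀ * wZ.prod) * R.prod))
          (fun _ => u 0 * u 1 * (S.prod * R.prod)) := fun x => rfl
    have hz0 : φ z = 0 := by
      have h1 := ih hvL' i₀ (z ::ₘ wZ) hw (by rw [Multiset.card_cons]; omega) (by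
        intro x hx
        rcases Multiset.mem_cons.1 hx with rfl | hx
        · exact hz
        · exact hwZ x hx)
      rw [hφ, ← h1, Multiset.prod_cons]
      congr 2
      ring
    have hUL : ∀ i, u i ∈ Submodule.span ℂ (Set.range e) ⊔ Z :=
      fun i => Submodule.mem_sup_left (hu i)
    have hvw : ∀ x ∈ v + (Multiset.replicate i₀ (u 2) + wZ),
        x ∈ Submodule.span ℂ (Set.range e) ⊔ Z := by
      intro x hx
      rcases Multiset.mem_add.1 hx with hx | hx
      · exact hvL' x hx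
      · rcases Multiset.mem_add.1 hx with hx | hx
        · rw [Multiset.eq_of_mem_replicate hx]; exact hUL 2
        · exact Submodule.mem_sup_right (hwZ x hx)
    have hvwc : Multiset.card (v + (Multiset.replicate i₀ (u 2) + wZ)) = j + 1 := by
      rw [Multiset.card_add, Multiset.card_add, Multiset.card_replicate]; omega
    have hφ' : ∀ x, φ x = G.curryLeft
        (x * ((v + (Multiset.replicate i₀ (u 2) + wZ)).prod * R.prod))
        (fun _ => u 0 * u 1 * (S.prod * R.prod)) := by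
      intro x
      rw [hφ, Multiset.prod_add, Multiset.prod_add, Multiset.prod_replicate]
    -- the part of the vector in the pencil of the main lines does not contribute
    have h0 : φ (u 0) = 0 := by
      rw [hφ']
      exact stepA hD (hUL 0) (hUL 1) _ S R hvwc hS hR hvw hSL hRL
    have h1 : φ (u 1) = 0 := by
      rw [hφ', mul_comm (u 0) (u 1)]
      exact stepA hD (hUL 1) (hUL 0) _ S R hvwc hS hR hvw hSL hRL
    have h2 : φ (u 2) = 0 := by
      rcases Nat.eq_zero_or_pos j with hj | hj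
      · have h1 := ih hvL' (i₀ + 1) wZ (by intro h0; omega) (by omega) hwZ
        rw [hφ, ← h1, pow_succ]
        congr 2
        ring
      · rw [hφ']
        obtain ⟨S', hS'⟩ := Multiset.exists_cons_of_mem (hS2 hj)
        have h3 := stepA hD (hUL 2) (hUL 0) _ (u 1 ::ₘ S') R hvwc (by
          rw [hS', Multiset.card_cons] at hS
          rw [Multiset.card_cons]; exact hS) hR hvw (by
          intro x hx
          rcases Multiset.mem_cons.1 hx with rfl | hx
          · exact hUL 1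
          · apply hSL
            rw [hS']
            exact Multiset.mem_cons_of_mem hx) hRL
        have h4 : u 2 * u 0 * ((u 1 ::ₘ S').prod * R.prod) = u 0 * u 1 * (S.prod * R.prod) := by
          rw [hS', Multiset.prod_cons, Multiset.prod_cons]
          ring
        rw [h4] at h3
        exact h3
    have hu0 : φ u' = 0 := by
      have h3 : Submodule.span ℂ {u 0, u 1, u 2} ≤ LinearMap.ker φ := by
        rw [Submodule.span_le]
        rintro _ (rfl | rfl | rfl)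
        · exact h0
        · exact h1
        · exact h2
      exact h3 (hsp hu')
    have h1 : (u' + z) * v.prod * (u 2 ^ i₀ * wZ.prod) * R.prod =
        (u' + z) * (v.prod * (u 2 ^ i₀ * wZ.prod) * R.prod) := by ring
    rw [Multiset.prod_cons, h1, ← hφ, map_add, hu0, hz0, add_zero]

lemma stepE3 (h : Setup3 e Z τ) (hM : k * k + 4 * k ≤ 2 * M + 2) (hM2 : 2 ≤ M) (hr : r + M ≤ b)
    (hG : Cls3 e Z τ b r G) (hD : DD (Submodule.span ℂ (Set.range e) ⊔ Z) b G (j + 1))
    (u : Fin 3 → A) (hu : ∀ i, u i ∈ Submodule.span ℂ (Set.range e))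
    (hsp : Submodule.span ℂ (Set.range e) ≤ Submodule.span ℂ {u 0, u 1, u 2})
    (v S R : Multiset A) (hv : Multiset.card v = j + 2) (hS : Multiset.card S = j)
    (hR : j + 2 + Multiset.card R = b)
    (hvL : ∀ x ∈ v, x ∈ Submodule.span ℂ (Set.range e) ⊔ Z)
    (hSL : ∀ x ∈ S, x ∈ Submodule.span ℂ (Set.range e) ⊔ Z)
    (hRL : ∀ x ∈ R, x ∈ Submodule.span ℂ (Set.range e) ⊔ Z) (hS2 : 1 ≤ j → u 2 ∈ S) :
    G.curryLeft (v.prod * R.prod) (fun _ => u 0 * u 1 * (S.prod * R.prod)) = 0 := by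
  have h1 := stepE3_aux h hM hM2 hr hG hD u hu hsp S R hS hR hSL hRL hS2 v hvL 0 0 (fun _ => rfl)
    (by simp [hv]) (by simp)
  rw [Multiset.prod_zero, pow_zero, mul_one, mul_one] at h1
  exact h1

lemma Cls3.comp {m : ℕ} {G : MultilinearMap ℂ (fun _ : Fin m => A) ℂ} (hG : Cls3 e Z τ b r G)
    {g : A →ₐ[ℂ] A} (hg : IsShear (Submodule.span ℂ (Set.range e)) Z g) :
    Cls3 e Z τ b r (H536.comp G g) where
  symm := by
    intro σ P
    rw [comp_apply, comp_apply]
    exact hG.symm σ (fun i => g (P i))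
  isK := by
    intro m hm hmL
    rw [comp_apply, map_multiset_prod]
    apply hG.isK
    · rw [Multiset.card_map, hm]
    · intro x hx
      obtain ⟨l, hl, rfl⟩ := Multiset.mem_map.1 hx
      exact hg.map_mem (hmL l hl)
  good := by
    intro g' hg'
    exact hG.good (g.comp g') (hg.comp hg')

/-- The step for lines in general position. -/
lemma stepF3 (h : Setup3 e Z τ) (hM : k * k + 4 * k ≤ 2 * M + 2) (hM2 : 2 ≤ M) (hr : r + M ≤ b)
    (hG : Cls3 e Z τ b r G)
    (hD : ∀ G : MultilinearMap ℂ (fun _ : Fin (k + 1) => A) ℂ, Cls3 e Z τ b r G →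
      DD (Submodule.span ℂ (Set.range e) ⊔ Z) b G (j + 1))
    (P : Matrix (Fin 3) (Fin 3) ℂ) (hP : P.det ≠ 0) (z : Fin 3 → A) (hz : ∀ i, z i ∈ Z)
    (l : Fin 3 → A) (hl : ∀ i, l i = ∑ c, P i c • e c + z i)
    (v S R : Multiset A) (hv : Multiset.card v = j + 2) (hS : Multiset.card S = j)
    (hR : j + 2 + Multiset.card R = b)
    (hvL : ∀ x ∈ v, x ∈ Submodule.span ℂ (Set.range e) ⊔ Z)
    (hSL : ∀ x ∈ S, x ∈ Submodule.span ℂ (Set.range e) ⊔ Z)
    (hRL : ∀ x ∈ R, x ∈ Submodule.span ℂ (Set.range e) ⊔ Z) (hS2 : 1 ≤ j → l 2 ∈ S) :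
    G.curryLeft (v.prod * R.prod) (fun _ => l 0 * l 1 * (S.prod * R.prod)) = 0 := by
  have hPu : IsUnit P.det := isUnit_iff_ne_zero.2 hP
  let u : Fin 3 → A := fun i => ∑ c, P i c • e c
  have hu : ∀ i, u i ∈ Submodule.span ℂ (Set.range e) := fun i =>
    Submodule.sum_mem _ fun c _ => Submodule.smul_mem _ _ (Submodule.subset_span ⟨c, rfl⟩)
  have he : ∀ c, e c = ∑ i, P⁻¹ c i • u i := by
    intro c
    simp only [u, Finset.smul_sum, smul_smul]
    rw [Finset.sum_comm]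
    simp only [← Finset.sum_smul]
    have h1 : ∀ c', ∑ i, P⁻¹ c i * P i c' = (1 : Matrix (Fin 3) (Fin 3) ℂ) c c' := by
      intro c'
      rw [← Matrix.mul_apply, Matrix.nonsing_inv_mul P hPu]
    simp only [h1, Matrix.one_apply, ite_smul, one_smul, zero_smul, Finset.sum_ite_eq,
      Finset.mem_univ, if_true]
  have hsp : Submodule.span ℂ (Set.range e) ≤ Submodule.span ℂ {u 0, u 1, u 2} := by
    rw [Submodule.span_le]
    rintro _ ⟨c, rfl⟩
    rw [SetLike.mem_coe, he c]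
    refine Submodule.sum_mem _ fun i _ => Submodule.smul_mem _ _ (Submodule.subset_span ?_)
    fin_cases i <;> simp
  let ζ : Fin 3 → A := fun c => ∑ i, P⁻¹ c i • z i
  have hζ : ∀ c, ζ c ∈ Z := fun c => Submodule.sum_mem _ fun i _ => Submodule.smul_mem _ _ (hz i)
  have hζ' : ∀ i, ∑ c, P i c • ζ c = z i := by
    intro i
    simp only [ζ, Finset.smul_sum, smul_smul]
    rw [Finset.sum_comm]
    simp only [← Finset.sum_smul]
    have h1 : ∀ i', ∑ c, P i c * P⁻¹ c i' = (1 : Matrix (Fin 3) (Fin 3) ℂ) i i' := by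
      intro i'
      rw [← Matrix.mul_apply, Matrix.mul_nonsing_inv P hPu]
    simp only [h1, Matrix.one_apply, ite_smul, one_smul, zero_smul, Finset.sum_ite_eq,
      Finset.mem_univ, if_true]
  obtain ⟨g, hg, hge⟩ := h.shear ζ hζ
  have hgu : ∀ i, g (u i) = l i := by
    intro i
    rw [hl i, ← hζ' i]
    simp only [u, map_sum, map_smul, hge, smul_add]
    rw [Finset.sum_add_distrib]
  obtain ⟨v', hv'c, hv'L, hv'⟩ := exists_map_eq (L := Submodule.span ℂ (Set.range e) ⊔ Z) (g := g)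
    (fun l hl => hg.exists_preimage hl) v hvL
  obtain ⟨R', hR'c, hR'L, hR'⟩ := exists_map_eq (L := Submodule.span ℂ (Set.range e) ⊔ Z) (g := g)
    (fun l hl => hg.exists_preimage hl) R hRL
  obtain ⟨S', hS'c, hS'L, hS', hS'2⟩ : ∃ S' : Multiset A, Multiset.card S' = Multiset.card S ∧
      (∀ x ∈ S', x ∈ Submodule.span ℂ (Set.range e) ⊔ Z) ∧ g S'.prod = S.prod ∧
      (1 ≤ j → u 2 ∈ S') := by
    rcases Nat.eq_zero_or_pos j with hj | hj
    · obtain ⟨S', h1, h2, h3⟩ := exists_map_eq (L := Submodule.span ℂ (Set.range e) ⊔ Z) (g := g)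
        (fun l hl => hg.exists_preimage hl) S hSL
      exact ⟨S', h1, h2, h3, fun h0 => by omega⟩
    · obtain ⟨S₁, hS₁⟩ := Multiset.exists_cons_of_mem (hS2 hj)
      obtain ⟨S', h1, h2, h3⟩ := exists_map_eq (L := Submodule.span ℂ (Set.range e) ⊔ Z) (g := g)
        (fun l hl => hg.exists_preimage hl) S₁ (fun x hx => hSL x (by
          rw [hS₁]; exact Multiset.mem_cons_of_mem hx))
      refine ⟨u 2 ::ₘ S', ?_, ?_, ?_, fun _ => Multiset.mem_cons_self _ _⟩
      · rw [hS₁, Multiset.card_cons, Multiset.card_cons, h1]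
      · intro x hx
        rcases Multiset.mem_cons.1 hx with rfl | hx
        · exact Submodule.mem_sup_left (hu 2)
        · exact h2 x hx
      · rw [Multiset.prod_cons, map_mul, h3, hgu, hS₁, Multiset.prod_cons]
  have h1 := stepE3 h hM hM2 hr (hG.comp hg) (hD _ (hG.comp hg)) u hu hsp v' S' R'
    (by rw [hv'c, hv]) (by rw [hS'c, hS]) (by rw [hR'c, hR]) hv'L hS'L hR'L hS'2
  rw [MultilinearMap.curryLeft_apply, comp_apply] at h1
  rw [← h1, MultilinearMap.curryLeft_apply]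
  congr 1
  funext i
  refine Fin.cases ?_ (fun i => ?_) i
  · rw [Fin.cons_zero, Fin.cons_zero, map_mul, hv', hR']
  · rw [Fin.cons_succ, Fin.cons_succ, map_mul, map_mul, map_mul, hgu, hgu, hS', hR']

lemma exists_coords3 {l : A} (hl : l ∈ Submodule.span ℂ (Set.range e) ⊔ Z) :
    ∃ (a : Fin 3 → ℂ) (z : A), z ∈ Z ∧ l = ∑ c, a c • e c + z := by
  obtain ⟨u, hu, z, hz, rfl⟩ := Submodule.mem_sup.1 hl
  obtain ⟨a, rfl⟩ := Submodule.mem_span_range_iff_exists_fun ℂ |>.1 hu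
  exact ⟨a, z, hz, rfl⟩

/-- The step `D_(j+1) ⇒ D_(j+2)`. -/
lemma stepG3 (h : Setup3 e Z τ) (hM : k * k + 4 * k ≤ 2 * M + 2) (hM2 : 2 ≤ M) (hr : r + M ≤ b)
    (hD : ∀ G : MultilinearMap ℂ (fun _ : Fin (k + 1) => A) ℂ, Cls3 e Z τ b r G →
      DD (Submodule.span ℂ (Set.range e) ⊔ Z) b G (j + 1))
    (hG : Cls3 e Z τ b r G) : DD (Submodule.span ℂ (Set.range e) ⊔ Z) b G (j + 2) := by
  intro v S R hv hS hR hvL hSL hRL
  obtain ⟨l₁, S₁, rfl⟩ : ∃ w v', S = w ::ₘ v' := by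
    obtain ⟨z, hz⟩ := Multiset.card_pos_iff_exists_mem.1 (by omega : 0 < Multiset.card S)
    obtain ⟨R, hR⟩ := Multiset.exists_cons_of_mem hz
    exact ⟨z, R, hR⟩
  rw [Multiset.card_cons] at hS
  obtain ⟨l₂, S₂, rfl⟩ : ∃ w v', S₁ = w ::ₘ v' := by
    obtain ⟨z, hz⟩ := Multiset.card_pos_iff_exists_mem.1 (by omega : 0 < Multiset.card S₁)
    obtain ⟨R, hR⟩ := Multiset.exists_cons_of_mem hz
    exact ⟨z, R, hR⟩
  rw [Multiset.card_cons] at hS
  have hS₂L : ∀ x ∈ S₂, x ∈ Submodule.span ℂ (Set.range e) ⊔ Z :=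
    fun x hx => hSL x (Multiset.mem_cons_of_mem (Multiset.mem_cons_of_mem hx))
  -- the third line
  obtain ⟨l₃, S₃, hl₃, hS₃L, hS₃⟩ : ∃ (l₃ : A) (S₃ : Multiset A),
      l₃ ∈ Submodule.span ℂ (Set.range e) ⊔ Z ∧
      (∀ x ∈ S₃, x ∈ Submodule.span ℂ (Set.range e) ⊔ Z) ∧
      ((j = 0 ∧ S₂ = 0 ∧ S₃ = 0) ∨ (1 ≤ j ∧ S₂ = l₃ ::ₘ S₃)) := by
    rcases Nat.eq_zero_or_pos j with hj | hj
    · exact ⟨0, 0, Submodule.zero_mem _, by simp, Or.inl
        ⟨hj, Multiset.card_eq_zero.1 (by omega), rfl⟩⟩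
    · obtain ⟨z, hz⟩ := Multiset.card_pos_iff_exists_mem.1 (by omega : 0 < Multiset.card S₂)
      obtain ⟨R, hR⟩ := Multiset.exists_cons_of_mem hz
      exact ⟨z, R, hS₂L z hz, fun x hx => hS₂L x (by rw [hR]; exact Multiset.mem_cons_of_mem hx),
        Or.inr ⟨hj, hR⟩⟩
  obtain ⟨a₁, z₁, hz₁, hl₁e⟩ := exists_coords3 (hSL l₁ (Multiset.mem_cons_self _ _))
  obtain ⟨a₂, z₂, hz₂, hl₂e⟩ := exists_coords3
    (hSL l₂ (Multiset.mem_cons_of_mem (Multiset.mem_cons_self _ _)))
  obtain ⟨a₃, z₃, hz₃, hl₃e⟩ := exists_coords3 hl₃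
  let A₀ : Matrix (Fin 3) (Fin 3) ℂ := Matrix.of ![a₁, a₂, a₃]
  let B : ℂ[X] := (-A₀).charpoly
  have hB : B ≠ 0 := (Matrix.charpoly_monic _).ne_zero
  have hBe : ∀ t, B.eval t = (A₀ + Matrix.scalar (Fin 3) t).det := by
    intro t
    simp only [B]
    rw [Matrix.eval_charpoly, sub_neg_eq_add, add_comm]
  have heL : ∀ c, e c ∈ Submodule.span ℂ (Set.range e) ⊔ Z :=
    fun c => Submodule.mem_sup_left (Submodule.subset_span ⟨c, rfl⟩)
  -- the value for the perturbed lines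
  have hval : ∀ t : ℂ, B.eval t ≠ 0 → ∀ S' : Multiset A, Multiset.card S' = j →
      (∀ x ∈ S', x ∈ Submodule.span ℂ (Set.range e) ⊔ Z) → (1 ≤ j → l₃ + t • e 2 ∈ S') →
      G.curryLeft (v.prod * R.prod)
        (fun _ => (l₁ + t • e 0) * (l₂ + t • e 1) * (S'.prod * R.prod)) = 0 := by
    intro t ht S' hS'c hS'L hS'2
    rw [hBe] at ht
    exact stepF3 h hM hM2 hr hG hD (A₀ + Matrix.scalar (Fin 3) t) ht ![z₁, z₂, z₃] (by
      intro i
      fin_cases i
      · exact hz₁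
      · exact hz₂
      · exact hz₃) ![l₁ + t • e 0, l₂ + t • e 1, l₃ + t • e 2] (by
      intro i
      fin_cases i
      · change l₁ + t • e 0 = ∑ c, (A₀ 0 c + Matrix.scalar (Fin 3) t 0 c) • e c + z₁
        rw [hl₁e]
        simp only [Fin.sum_univ_three, add_smul]
        simp [A₀]
        abel
      · change l₂ + t • e 1 = ∑ c, (A₀ 1 c + Matrix.scalar (Fin 3) t 1 c) • e c + z₂
        rw [hl₂e]
        simp only [Fin.sum_univ_three, add_smul]
        simp [A₀]
        abel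
      · change l₃ + t • e 2 = ∑ c, (A₀ 2 c + Matrix.scalar (Fin 3) t 2 c) • e c + z₃
        rw [hl₃e]
        simp only [Fin.sum_univ_three, add_smul]
        simp [A₀]
        abel) v S' R hv hS'c (by omega) hvL hS'L hRL hS'2
  rcases hS₃ with ⟨hj, hS₂, -⟩ | ⟨hj, hS₂⟩
  · have key := limit_generic G (C (v.prod * R.prod))
      ((C l₁ + X * C (e 0)) * (C l₂ + X * C (e 1)) * C (S₂.prod * R.prod)) B hB (by
        intro t ht
        simp only [eval_mul, eval_add, eval_X, eval_C, ← Algebra.smul_def]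
        exact hval t ht S₂ (by omega) hS₂L (fun h0 => by omega)) 0
    simp only [eval_mul, eval_add, eval_X, eval_C, map_zero, zero_mul, add_zero] at key
    rw [Multiset.prod_cons, Multiset.prod_cons]
    have h1 : l₁ * (l₂ * S₂.prod) * R.prod = l₁ * l₂ * (S₂.prod * R.prod) := by ring
    rw [h1]
    exact key
  · have key := limit_generic G (C (v.prod * R.prod))
      ((C l₁ + X * C (e 0)) * (C l₂ + X * C (e 1)) *
        (((C l₃ + X * C (e 2)) * C S₃.prod) * C R.prod)) B hB (by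
        intro t ht
        simp only [eval_mul, eval_add, eval_X, eval_C, ← Algebra.smul_def]
        have h9 : (l₃ + t • e 2) * S₃.prod = ((l₃ + t • e 2) ::ₘ S₃).prod :=
          (Multiset.prod_cons _ _).symm
        rw [h9]
        refine hval t ht _ ?_ ?_ (fun _ => Multiset.mem_cons_self _ _)
        · rw [hS₂, Multiset.card_cons] at hS
          rw [Multiset.card_cons]
          omega
        · intro x hx
          rcases Multiset.mem_cons.1 hx with rfl | hx
          · exact Submodule.add_mem _ hl₃ (Submodule.smul_mem _ _ (heL 2))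
          · exact hS₃L x hx) 0
    simp only [eval_mul, eval_add, eval_X, eval_C, map_zero, zero_mul, add_zero] at key
    rw [Multiset.prod_cons, Multiset.prod_cons, hS₂, Multiset.prod_cons]
    have h1 : l₁ * (l₂ * (l₃ * S₃.prod)) * R.prod = l₁ * l₂ * (l₃ * S₃.prod * R.prod) := by ring
    rw [h1]
    exact key

theorem DD_all3 (h : Setup3 e Z τ) (hM : k * k + 4 * k ≤ 2 * M + 2) (hM2 : 2 ≤ M) (hr : r + M ≤ b)
    (j : ℕ) :
    ∀ G : MultilinearMap ℂ (fun _ : Fin (k + 1) => A) ℂ, Cls3 e Z τ b r G →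
      DD (Submodule.span ℂ (Set.range e) ⊔ Z) b G j := by
  have key : ∀ j, (∀ G : MultilinearMap ℂ (fun _ : Fin (k + 1) => A) ℂ, Cls3 e Z τ b r G →
      DD (Submodule.span ℂ (Set.range e) ⊔ Z) b G j) ∧
      (∀ G : MultilinearMap ℂ (fun _ : Fin (k + 1) => A) ℂ, Cls3 e Z τ b r G →
      DD (Submodule.span ℂ (Set.range e) ⊔ Z) b G (j + 1)) := by
    intro j
    induction j with
    | zero => exact ⟨fun G hG => DD_zero hG.isK, fun G hG => DD_one hG.symm hG.isK⟩
    | succ j ih => exact ⟨ih.2, fun G hG => stepG3 h hM hM2 hr ih.2 hG⟩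
  exact (key j).1

end Vale.Agent.P181.H534
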